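import Mathlib
import Vale.Agent.P146.Bd5.B2

/-!
# P146-S, R7 (A): definitions
-/

open MeasureTheory ProbabilityTheory Filter Topology

namespace Vale.Agent.P146.R3.A

open Vale.Agent.P157 Vale.Agent.P157.Lv Vale.Agent.P157.Lv.Sy Vale.Agent.P157.Lv.Fld
open Vale.Agent.P146.Ub Vale.Agent.P146.Ub.Ld

section gen

variable {ι X : Type} [Fintype ι] [DecidableEq ι] [Fintype X] [DecidableEq X] [Nonempty X] {N : ℕ}

/-- the L² norm in `S` of the deviation of the field `j` from its mean in `S'` -/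
noncomputable def af (S S' : Sy ι X) (φ : X → Fin N → ℝ) (zc : ℕ → Fin N → ι) (j : ℕ) : ℝ :=
  if j ≤ S.K then √(S.Ex (fun z x => (hz φ zc j z x - S'.Ex (hz φ zc j)) ^ 2)) else 0

/-- the L² deviation of `u_l` (in `S`) from the path of `S'` -/
noncomputable def aV (S S' : Sy ι X) (φ : X → Fin N → ℝ) (l : ℕ) : ℝ :=
  S.Ex (fun z x => (uu S φ l z x - S'.Rl φ l) ^ 2)

end gen

/-- The sum of the (squared) errors. -/
noncomputable def gE2 (n K d : ℕ) (β : ℝ) (N : ℕ) (s : ℕ → ℝ) (t : ℝ) : ℝ :=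
  (∑ j ∈ Finset.Ico d (K + 1), me K d * dl n K d (me K) β N s t j) / (me K d * t * N) ^ 2

end Vale.Agent.P146.R3.A
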