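import Mathlib
import Vale.Agent.P146.R3.H749.ADef

/-!
# P146-S, R7 (A-v3): the rate, from the step

The grid has the step `t = 1 / (m_d n)` and `M = ⌈σ m_d n⌉` points for every strength.
-/

open MeasureTheory ProbabilityTheory Filter Topology

namespace Vale.Agent.P146.R3.A

set_option linter.all false

open Vale.Agent.P157 Vale.Agent.P157.Lv Vale.Agent.P157.Lv.Sy Vale.Agent.P157.Lv.Fld
open Vale.Agent.P157.Par (Path Exponents incr spinPart)
open Vale.Agent.P146 (Pair freeEnergy disorder)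
open Vale.Agent.P146.Sk (PSK)
open Vale.Agent.P146.Ub Vale.Agent.P146.Ub.Ld

/-- The statement of `gstep2`. -/
def GStep2 (K d : ℕ) (β : ℝ) : Prop :=
  ∀ (n N : ℕ) (s : ℕ → ℝ) (hN : N + 1 ≤ n), 0 < N → ∀ σ : ℝ, 0 < σ → σ ≤ 1 →
    (∀ l, d ≤ l → l ≤ K → σ ≤ s l) → (∀ l, l < d → s l = 0) → ∀ t : ℝ, 0 < t →
    me K d * t * N ≤ 1 →
    PSK β K (me K) (ct d (stR (SN n K d (me K) β N s) (ph (Nat.le_of_succ_le hN)))) ≤
      AN n K d (me K) β (N + 1) s - AN n K d (me K) β N s + β ^ 2 / (N + 1 : ℕ) +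
        β ^ 2 * (√(1 + Real.log ((K : ℝ) + 1)) *
          (11 / ((K : ℝ) + 1) + 19 * Real.exp (β ^ 2 / 2) * √(gE2 n K d β N s t) / σ))

/-- `∑ N^(-1/2) ≤ 2 n^(1/2)` -/
theorem sum_inv_sqrt (n : ℕ) : ∑ N ∈ Finset.Ico 1 (n + 1), (1 / √(N : ℝ)) ≤ 2 * √(n : ℝ) := by
  induction n with
  | zero => simp
  | succ n ih =>
    rw [Finset.sum_Ico_succ_top (by omega)]
    have hn : (0 : ℝ) ≤ n := Nat.cast_nonneg n
    have h1 : 0 ≤ √(n : ℝ) := Real.sqrt_nonneg _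
    have h2 : √(n : ℝ) ≤ √((n : ℝ) + 1) := Real.sqrt_le_sqrt (by linarith)
    have h3 : √(n : ℝ) * √(n : ℝ) = n := Real.mul_self_sqrt hn
    have h4 : √((n : ℝ) + 1) * √((n : ℝ) + 1) = n + 1 := Real.mul_self_sqrt (by linarith)
    have h5 : 0 < √((n : ℝ) + 1) := Real.sqrt_pos.2 (by linarith)
    push_cast
    have h6 : 1 / √((n : ℝ) + 1) ≤ 2 * (√((n : ℝ) + 1) - √(n : ℝ)) := by
      rw [div_le_iff₀ h5]
      nlinarith
    linarith

theorem sum_inv_sqrt_le (n : ℕ) : ∑ N ∈ Finset.Ico 1 n, (1 / √(N : ℝ)) ≤ 2 * √(n : ℝ) := by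
  refine le_trans ?_ (sum_inv_sqrt n)
  exact Finset.sum_le_sum_of_subset_of_nonneg (Finset.Ico_subset_Ico le_rfl (Nat.le_succ n))
    fun i _ _ => by positivity

theorem me_pos {K d : ℕ} (hd1 : 1 ≤ d) : 0 < me K d := by
  unfold me
  have : (0 : ℝ) < d := by exact_mod_cast hd1
  positivity

theorem me_le_one {K d : ℕ} (hd : d ≤ K) : me K d ≤ 1 := by
  unfold me
  rw [div_le_one (by positivity)]
  exact_mod_cast (by omega : d ≤ K + 1)

section Step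

variable {n K N d M : ℕ} {β : ℝ}

/-- The average of `gE2` over the grid. -/
theorem gE2_avg (hd1 : 1 ≤ d) (hd : d ≤ K) (hN : N ≤ n) (h0 : 0 < N) (hM : 0 < M) {σ t : ℝ}
    (ht : 0 < t) (hσ : t ≤ σ) (hMσ : σ ≤ M * t) :
    rAv (fun k : Fin (K + 1) → Fin M => gE2 n K d β N (ct d (gp σ t k)) t) ≤
      2 * ((K : ℝ) + 1) / (me K d * N) := by
  have hm := me_pos (K := K) hd1
  have hN0 : (0 : ℝ) < N := by exact_mod_cast h0
  have hM0 : (0 : ℝ) < M := by exact_mod_cast hM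
  have hne : Nonempty (Fin (K + 1) → Fin M) := ⟨fun _ => ⟨0, hM⟩⟩
  obtain ⟨m, hmd⟩ : ∃ m, m = me K d := ⟨_, rfl⟩
  rw [← hmd] at hm ⊢
  have e1 : ∀ k : Fin (K + 1) → Fin M, gE2 n K d β N (ct d (gp σ t k)) t =
      (m / (m * t * N) ^ 2) * ∑ j ∈ Finset.Ico d (K + 1),
        dl n K d (me K) β N (ct d (gp σ t k)) t j := by
    intro k
    unfold gE2
    rw [← hmd, ← Finset.mul_sum]
    ring
  simp only [e1]
  rw [rAv_mul]
  have hcard : (Fintype.card (Fin (K + 1) → Fin M) : ℝ) = (M : ℝ) ^ (K + 1) := by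
    rw [Fintype.card_pi_const, Fintype.card_fin, Nat.cast_pow]
  have h1 : rAv (fun k : Fin (K + 1) → Fin M => ∑ j ∈ Finset.Ico d (K + 1),
      dl n K d (me K) β N (ct d (gp σ t k)) t j) ≤ ((K : ℝ) + 1) * (2 * t ^ 2 * N) := by
    unfold rAv
    rw [hcard, Finset.sum_comm]
    have h5 : ∑ j ∈ Finset.Ico d (K + 1), ∑ k : Fin (K + 1) → Fin M,
        dl n K d (me K) β N (ct d (gp σ t k)) t j ≤
        ∑ j ∈ Finset.Ico d (K + 1), ((M : ℝ) ^ K * (t * (N * (σ + M * t)))) := by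
      refine Finset.sum_le_sum fun j hj => ?_
      have hj' := Finset.mem_Ico.1 hj
      exact gavg_dl (n := n) (K := K) (N := N) (β := β) hd hN h0 (me_exp K) hM ht hσ hj'.1
        (Nat.le_of_lt_succ hj'.2)
    rw [Finset.sum_const, Nat.card_Ico, nsmul_eq_mul] at h5
    have h6 : ((K + 1 - d : ℕ) : ℝ) ≤ (K : ℝ) + 1 := by
      have : ((K + 1 - d : ℕ) : ℝ) ≤ ((K + 1 : ℕ) : ℝ) := by exact_mod_cast Nat.sub_le _ _
      push_cast at this
      exact this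
    have hσ0 : 0 < σ := ht.trans_le hσ
    have h7 : ((K + 1 - d : ℕ) : ℝ) * ((M : ℝ) ^ K * (t * (N * (σ + M * t)))) ≤
        ((K : ℝ) + 1) * ((M : ℝ) ^ K * (t * (N * (2 * (M * t))))) := by
      refine mul_le_mul h6 ?_ (by positivity) (by positivity)
      refine mul_le_mul_of_nonneg_left (mul_le_mul_of_nonneg_left
        (mul_le_mul_of_nonneg_left (by linarith) hN0.le) ht.le) (by positivity)
    have h8 := mul_le_mul_of_nonneg_left (h5.trans h7)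
      (by positivity : (0 : ℝ) ≤ 1 / (M : ℝ) ^ (K + 1))
    refine h8.trans (le_of_eq ?_)
    rw [pow_succ]
    field_simp
  have h2 := mul_le_mul_of_nonneg_left h1 (by positivity : (0 : ℝ) ≤ m / (m * t * N) ^ 2)
  refine h2.trans (le_of_eq ?_)
  field_simp

theorem gE2_nonneg (hd1 : 1 ≤ d) (hd : d ≤ K) (hN : N ≤ n) (s : ℕ → ℝ) (t : ℝ) :
    0 ≤ gE2 n K d β N s t := by
  unfold gE2
  refine div_nonneg (Finset.sum_nonneg fun j hj => ?_) (sq_nonneg _)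
  have hj' := Finset.mem_Ico.1 hj
  exact mul_nonneg (me_pos hd1).le (rr_dl_nonneg hd hN (me_exp K) s t (by omega))

/-- The averaged step. -/
theorem grate_step2 {Lb : ℝ} (hG : GStep2 K d β) (hd1 : 1 ≤ d) (hd : d ≤ K)
    (hLb : ∀ q : ℕ → ℝ, Path K q → q K ≤ 1 → (∀ l < d, q l = 0) → Lb ≤ PSK β K (me K) q)
    (hN : N + 1 ≤ n) (h0 : 0 < N) (hM : 0 < M) {σ t : ℝ} (hσ1 : σ ≤ 1)
    (ht : 0 < t) (hσ : t ≤ σ) (hMσ : σ ≤ M * t) (htn : me K d * t * N ≤ 1) :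
    Lb ≤ rAv (fun k : Fin (K + 1) → Fin M =>
      AN n K d (me K) β (N + 1) (ct d (gp σ t k)) - AN n K d (me K) β N (ct d (gp σ t k))) +
      β ^ 2 * (1 / N) + β ^ 2 * (√(1 + Real.log ((K : ℝ) + 1)) *
        (11 / ((K : ℝ) + 1) + 19 * Real.exp (β ^ 2 / 2) *
          √(2 * ((K : ℝ) + 1) / me K d) / σ * (1 / √N))) := by
  have hσ0 : 0 < σ := ht.trans_le hσ
  have hN' : N ≤ n := Nat.le_of_succ_le hN
  have hN0 : (0 : ℝ) < N := by exact_mod_cast h0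
  have hne : Nonempty (Fin (K + 1) → Fin M) := ⟨fun _ => ⟨0, hM⟩⟩
  have hm := me_pos (K := K) hd1
  obtain ⟨X, hX⟩ : ∃ X : (Fin (K + 1) → Fin M) → ℝ,
      X = fun k => gE2 n K d β N (ct d (gp σ t k)) t := ⟨_, rfl⟩
  obtain ⟨Dk, hDk⟩ : ∃ Dk : (Fin (K + 1) → Fin M) → ℝ,
      Dk = fun k => AN n K d (me K) β (N + 1) (ct d (gp σ t k)) -
        AN n K d (me K) β N (ct d (gp σ t k)) := ⟨_, rfl⟩
  obtain ⟨w, hw⟩ : ∃ w : ℝ, w = √(1 + Real.log ((K : ℝ) + 1)) := ⟨_, rfl⟩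
  obtain ⟨E, hE⟩ : ∃ E : ℝ, E = Real.exp (β ^ 2 / 2) := ⟨_, rfl⟩
  have hE0 : 0 < E := by rw [hE]; exact Real.exp_pos _
  have hw0 : 0 ≤ w := by rw [hw]; exact Real.sqrt_nonneg _
  have hav := gE2_avg (n := n) (K := K) (N := N) (d := d) (β := β) hd1 hd hN' h0 hM ht hσ hMσ
  rw [← hX] at hav
  rw [← hDk, ← hw, ← hE]
  have hX0 : ∀ k, 0 ≤ X k := fun k => by rw [hX]; exact gE2_nonneg hd1 hd hN' _ _
  -- the step at each point of the grid
  have hstep : ∀ k, Lb ≤ Dk k + (β ^ 2 * (1 / N) + β ^ 2 * (w * (11 / ((K : ℝ) + 1)))) +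
      (β ^ 2 * (w * (19 * E / σ))) * √(X k) := by
    intro k
    have hs0 : ∀ j ≤ K, 0 ≤ ct d (gp σ t k) j := by
      intro j hj
      unfold ct
      split_ifs
      · exact le_rfl
      · exact hσ0.le.trans (gp_mem ht.le k hj).1
    have h1 := hG n N (ct d (gp σ t k)) hN h0 σ hσ0 hσ1
      (fun j hdj hj => by rw [ct_ge hdj]; exact (gp_mem ht.le k hj).1)
      (fun j hj => ct_lt hj _) t ht htn
    have hF := SN_fld (n := n) (K := K) (m := me K) (N := N) (β := β) (s := ct d (gp σ t k)) hd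
      hN' h0 (me_exp K) hs0
    have hlast : stR (SN n K d (me K) β N (ct d (gp σ t k))) (ph hN') K = 1 :=
      stR_last (SN n K d (me K) β N (ct d (gp σ t k))) (ph hN')
    have h2 := hLb (ct d (stR (SN n K d (me K) β N (ct d (gp σ t k))) (ph hN')))
      (ct_path (st_path hF)) (by rw [ct_ge hd, hlast]) (fun l hl => ct_lt hl _)
    have h3 := h2.trans h1
    have h7 : 1 / ((N + 1 : ℕ) : ℝ) ≤ 1 / N := by
      apply one_div_le_one_div_of_le hN0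
      push_cast
      linarith
    have hb := sq_nonneg β
    have h8 : β ^ 2 / ((N + 1 : ℕ) : ℝ) ≤ β ^ 2 * (1 / N) := by
      rw [← mul_one_div]
      exact mul_le_mul_of_nonneg_left h7 hb
    have hDk' : Dk k = AN n K d (me K) β (N + 1) (ct d (gp σ t k)) -
        AN n K d (me K) β N (ct d (gp σ t k)) := by rw [hDk]
    have hXk : gE2 n K d β N (ct d (gp σ t k)) t = X k := by rw [hX]
    rw [hXk, ← hw, ← hE] at h3
    rw [hDk']
    have e1 : β ^ 2 * (w * (11 / ((K : ℝ) + 1) + 19 * E * √(X k) / σ)) =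
        β ^ 2 * (w * (11 / ((K : ℝ) + 1))) + (β ^ 2 * (w * (19 * E / σ))) * √(X k) := by ring
    linarith
  have h1 := rAv_mono hstep
  rw [rAv_const, rAv_add, rAv_add, rAv_const, rAv_mul] at h1
  have h2 : rAv (fun k => √(X k)) ≤ √(2 * ((K : ℝ) + 1) / me K d) * (1 / √N) := by
    refine (rAv_sqrt hX0).trans ?_
    have e : √(2 * ((K : ℝ) + 1) / me K d) * (1 / √(N : ℝ)) =
        √(2 * ((K : ℝ) + 1) / (me K d * N)) := by
      rw [mul_one_div, ← Real.sqrt_div (by positivity), div_div]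
    rw [e]
    exact Real.sqrt_le_sqrt hav
  have hb := sq_nonneg β
  have h3 := mul_le_mul_of_nonneg_left h2 (by positivity : 0 ≤ β ^ 2 * (w * (19 * E / σ)))
  have e2 : β ^ 2 * (w * (19 * E / σ)) * (√(2 * ((K : ℝ) + 1) / me K d) * (1 / √N)) +
      β ^ 2 * (w * (11 / ((K : ℝ) + 1))) =
      β ^ 2 * (w * (11 / ((K : ℝ) + 1) + 19 * E * √(2 * ((K : ℝ) + 1) / me K d) / σ *
        (1 / √N))) := by ring
  linarith

end Step

/-- **The rate**, from the step. -/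
theorem grate2_of {β : ℝ} (hG : ∀ K d : ℕ, 1 ≤ d → d ≤ K → GStep2 K d β) :
    ∃ C : ℝ, 0 ≤ C ∧ ∀ (K d : ℕ) (Lb : ℝ),
    1 ≤ d → d ≤ K →
    (∀ q : ℕ → ℝ, Path K q → q K ≤ 1 → (∀ l < d, q l = 0) → Lb ≤ PSK β K (me K) q) →
    ∀ n : ℕ, 1 ≤ n → ∀ σ : ℝ, 0 < σ → σ ≤ 1 → 1 ≤ σ * me K d * n →
      n * (Real.log 2 + Lb) ≤
        1 / me K d * Real.log (∫ g, Real.exp (me K d * freeEnergy n β g) ∂(disorder n)) +
          C * (1 + Real.log ((K : ℝ) + 1)) *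
            (n / ((K : ℝ) + 1) + √(((K : ℝ) + 1) * n / me K d) / σ + n * ((K : ℝ) + 1) * σ ^ 2) +
          C * (1 + Real.log n) := by
  refine ⟨9 / 2 + β ^ 2 / 4 + β ^ 2 + β ^ 2 * (11 + 76 * Real.exp (β ^ 2 / 2)), by positivity, ?_⟩
  intro K d Lb hd1 hd hLb n hn σ hσ0 hσ1 hσn
  have hm := me_pos (K := K) hd1
  have hn0 : 0 < n := hn
  have hnpos : (0 : ℝ) < n := by exact_mod_cast hn0
  have hn1 : (1 : ℝ) ≤ n := by exact_mod_cast hn
  obtain ⟨E, hE⟩ : ∃ E : ℝ, E = 1 / me K d *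
    Real.log (∫ g, Real.exp (me K d * freeEnergy n β g) ∂(disorder n)) := ⟨_, rfl⟩
  rw [← hE]
  obtain ⟨t, htd⟩ : ∃ t, t = 1 / (me K d * n) := ⟨_, rfl⟩
  have ht : 0 < t := by rw [htd]; positivity
  have htσ : t ≤ σ := by
    rw [htd, div_le_iff₀ (by positivity)]
    linarith
  obtain ⟨M, hMd⟩ : ∃ M, M = ⌈σ * me K d * n⌉₊ := ⟨_, rfl⟩
  have hM1 : σ * me K d * n ≤ M := by rw [hMd]; exact Nat.le_ceil _
  have hM2 : (M : ℝ) < σ * me K d * n + 1 := by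
    rw [hMd]; exact Nat.ceil_lt_add_one (by positivity)
  have hM0 : 0 < M := by
    have : (0 : ℝ) < M := by linarith
    exact_mod_cast this
  have hMσ : σ ≤ M * t := by
    rw [htd, mul_one_div, le_div_iff₀ (by positivity)]
    linarith
  have hMσ2 : M * t ≤ 2 * σ := by
    rw [htd, mul_one_div, div_le_iff₀ (by positivity)]
    linarith
  have hne : Nonempty (Fin (K + 1) → Fin M) := ⟨fun _ => ⟨0, hM0⟩⟩
  obtain ⟨S, hS⟩ : ∃ S : (Fin (K + 1) → Fin M) → ℕ → ℝ, S = fun k => ct d (gp σ t k) := ⟨_, rfl⟩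
  have hstep := fun N (hN : N ∈ Finset.Ico 1 n) =>
    grate_step2 (n := n) (K := K) (N := N) (M := M) (β := β) (hG K d hd1 hd) hd1 hd hLb
      (Finset.mem_Ico.1 hN).2 (Finset.mem_Ico.1 hN).1 hM0 hσ1 ht htσ hMσ (by
        have h1 : (N : ℝ) ≤ n := by exact_mod_cast (Finset.mem_Ico.1 hN).2.le
        have h2 : me K d * t * n = 1 := by rw [htd]; field_simp
        rw [← h2]
        exact mul_le_mul_of_nonneg_left h1 (by positivity))
  have hSle : ∀ k, ∀ j ≤ K, 0 ≤ S k j ∧ S k j ≤ 3 * σ := by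
    intro k j hj
    rw [hS]
    simp only
    unfold ct
    split_ifs
    · exact ⟨le_rfl, by positivity⟩
    · have h6 := gp_mem (σ := σ) ht.le k hj
      exact ⟨hσ0.le.trans h6.1, by linarith [h6.2]⟩
  obtain ⟨l, hl⟩ : ∃ l : ℝ, l = (K : ℝ) + 1 := ⟨_, rfl⟩
  have hl1 : 1 ≤ l := by rw [hl]; linarith [Nat.cast_nonneg (α := ℝ) K]
  have hl0 : 0 < l := by linarith
  rw [← hl] at hstep ⊢
  have hlog0 : 0 ≤ Real.log l := Real.log_nonneg hl1
  have hlogn : 0 ≤ Real.log n := Real.log_nonneg hn1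
  obtain ⟨w, hw⟩ : ∃ w : ℝ, w = √(1 + Real.log l) := ⟨_, rfl⟩
  have hw0 : 0 ≤ w := by rw [hw]; exact Real.sqrt_nonneg _
  have hw1 : w ≤ 1 + Real.log l := by
    rw [hw]
    refine Real.sqrt_le_iff.2 ⟨by linarith, ?_⟩
    nlinarith
  obtain ⟨X, hX⟩ : ∃ X : ℝ, X = Real.exp (β ^ 2 / 2) := ⟨_, rfl⟩
  have hX0 : 0 < X := by rw [hX]; exact Real.exp_pos _
  obtain ⟨Y, hY⟩ : ∃ Y : ℝ, Y = √(2 * l / me K d) / σ := ⟨_, rfl⟩
  have hY0 : 0 ≤ Y := by rw [hY]; positivity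
  rw [← hw, ← hX] at hstep
  rw [← hX]
  -- the sum over the stages
  obtain ⟨A1, hA1⟩ : ∃ A : ℝ, A = β ^ 2 * (w * (11 / l)) := ⟨_, rfl⟩
  obtain ⟨A2, hA2⟩ : ∃ A : ℝ, A = β ^ 2 * (w * (19 * X * Y)) := ⟨_, rfl⟩
  have hsum : ∑ N ∈ Finset.Ico 1 n, Lb ≤
      ∑ N ∈ Finset.Ico 1 n, ((rAv (fun k => AN n K d (me K) β (N + 1) (S k)) -
        rAv (fun k => AN n K d (me K) β N (S k))) + (β ^ 2 * (1 / N) +
          (A1 + A2 * (1 / √(N : ℝ))))) := by
    refine Finset.sum_le_sum fun N hN => ?_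
    have h := hstep N hN
    rw [rAv_sub] at h
    rw [hS, hA1, hA2]
    have e : β ^ 2 * (w * (11 / l + 19 * X * √(2 * l / me K d) / σ * (1 / √(N : ℝ)))) =
        β ^ 2 * (w * (11 / l)) + β ^ 2 * (w * (19 * X * Y)) * (1 / √(N : ℝ)) := by
      rw [hY]; ring
    linarith
  rw [Finset.sum_add_distrib, Finset.sum_Ico_sub (fun N => rAv (fun k => AN n K d (me K) β N (S k))) hn,
    Finset.sum_const, Nat.card_Ico, nsmul_eq_mul, Nat.cast_sub hn, Nat.cast_one,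
    Finset.sum_add_distrib, ← Finset.mul_sum,
    Finset.sum_add_distrib, ← Finset.mul_sum, Finset.sum_const, Nat.card_Ico, nsmul_eq_mul,
    Nat.cast_sub hn, Nat.cast_one] at hsum
  have hH := sum_one_div_le n
  have hH2 := sum_inv_sqrt_le n
  obtain ⟨H, hHd⟩ : ∃ H : ℝ, H = ∑ N ∈ Finset.Ico 1 n, (1 / (N : ℝ)) := ⟨_, rfl⟩
  obtain ⟨H2, hH2d⟩ : ∃ H : ℝ, H = ∑ N ∈ Finset.Ico 1 n, (1 / √(N : ℝ)) := ⟨_, rfl⟩
  rw [← hHd] at hH hsum
  rw [← hH2d] at hH2 hsum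
  -- the ends
  have h0 : 0 ≤ rAv (fun k => AN n K d (me K) β 1 (S k)) := by
    have := rAv_mono (f := fun _ => (0 : ℝ)) (g := fun k => AN n K d (me K) β 1 (S k))
      fun k => rr_nonneg hd (me_exp K) β 1 (S k)
    rw [rAv_const] at this
    exact this
  have h1 : rAv (fun k => AN n K d (me K) β n (S k)) ≤
      (E - n * Real.log 2) + 9 / 2 * (n * l * σ ^ 2) := by
    have h2 : ∀ k, AN n K d (me K) β n (S k) ≤
        (E - n * Real.log 2) + 9 / 2 * (n * l * σ ^ 2) := by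
      intro k
      have h3 := rr_le (n := n) hd (me_exp K) β (S k)
      rw [AN_zero hd1 hd hn0 (me_exp K) β, ← hE] at h3
      have h4 : ∑ j ∈ Finset.range (K + 1), S k j ^ 2 ≤ 9 * (l * σ ^ 2) := by
        have h5 : ∀ j ∈ Finset.range (K + 1), S k j ^ 2 ≤ (3 * σ) ^ 2 := by
          intro j hj
          have h6 := hSle k j (Nat.le_of_lt_succ (Finset.mem_range.1 hj))
          exact pow_le_pow_left₀ h6.1 h6.2 2
        refine (Finset.sum_le_sum h5).trans (le_of_eq ?_)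
        rw [Finset.sum_const, Finset.card_range, nsmul_eq_mul]
        push_cast
        rw [← hl]
        ring
      have h5 := mul_le_mul_of_nonneg_left h4 (by positivity : (0 : ℝ) ≤ n / 2)
      refine h3.trans ?_
      have e : (n : ℝ) * (∑ j ∈ Finset.range (K + 1), S k j ^ 2) / 2 =
          n / 2 * ∑ j ∈ Finset.range (K + 1), S k j ^ 2 := by ring
      rw [e]
      linarith
    have h3 := rAv_mono h2
    rw [rAv_const] at h3
    exact h3
  -- conclusion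
  have hLbu := rr_Lb hLb
  have hb := sq_nonneg β
  obtain ⟨a, ha⟩ : ∃ a : ℝ, a = 1 + Real.log l := ⟨_, rfl⟩
  obtain ⟨b, hbd⟩ : ∃ b : ℝ, b = 1 + Real.log n := ⟨_, rfl⟩
  have ha1 : 1 ≤ a := by linarith
  have hb1 : 1 ≤ b := by linarith
  rw [← ha] at hw1 ⊢
  rw [← hbd] at hH ⊢
  have hH0 : 0 ≤ H := by
    rw [hHd]; exact Finset.sum_nonneg fun i _ => by positivity
  obtain ⟨Z, hZ⟩ : ∃ Z : ℝ, Z = √(l * n / me K d) / σ := ⟨_, rfl⟩
  have hZ0 : 0 ≤ Z := by rw [hZ]; positivity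
  rw [← hZ]
  obtain ⟨U, hU⟩ : ∃ U : ℝ, U = n * l * σ ^ 2 := ⟨_, rfl⟩
  have hU0 : 0 ≤ U := by rw [hU]; positivity
  rw [← hU] at h1 ⊢
  have hYZ : Y * √(n : ℝ) ≤ 2 * Z := by
    have e1 : Y * √(n : ℝ) = √(2 * (l * n / me K d)) / σ := by
      rw [hY, div_mul_eq_mul_div, ← Real.sqrt_mul (by positivity)]
      congr 2
      ring
    have e2 : √(2 * (l * n / me K d)) ≤ 2 * √(l * n / me K d) := by
      rw [Real.sqrt_mul (by norm_num)]
      refine mul_le_mul_of_nonneg_right ?_ (Real.sqrt_nonneg _)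
      rw [Real.sqrt_le_left (by norm_num)]
      norm_num
    rw [e1, hZ]
    have e3 : 2 * (√(l * n / me K d) / σ) = (2 * √(l * n / me K d)) / σ := by ring
    rw [e3]
    exact div_le_div_of_nonneg_right e2 hσ0.le
  have hnl : 0 ≤ (n : ℝ) / l := by positivity
  obtain ⟨T, hT⟩ : ∃ T : ℝ, T = n / l + Z + U := ⟨_, rfl⟩
  have hT0 : 0 ≤ T := by rw [hT]; positivity
  have k1 : β ^ 2 * H ≤ β ^ 2 * b := mul_le_mul_of_nonneg_left hH hb
  have k2 : ((n : ℝ) - 1) * A1 ≤ β ^ 2 * 11 * (a * T) := by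
    rw [hA1]
    have h2 : (11 / l) * ((n : ℝ) - 1) ≤ 11 * T := by
      have h3 : (11 / l) * ((n : ℝ) - 1) ≤ (11 / l) * n :=
        mul_le_mul_of_nonneg_left (by linarith) (by positivity)
      have e : (11 / l) * (n : ℝ) = 11 * (n / l) := by ring
      rw [e] at h3
      refine h3.trans (mul_le_mul_of_nonneg_left ?_ (by norm_num))
      rw [hT]
      linarith
    have h3 : w * ((11 / l) * ((n : ℝ) - 1)) ≤ a * (11 * T) :=
      mul_le_mul hw1 h2 (by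
        have : 0 ≤ (n : ℝ) - 1 := by linarith
        positivity) (by linarith)
    have h4 := mul_le_mul_of_nonneg_left h3 hb
    linarith
  have k3 : A2 * H2 ≤ β ^ 2 * (76 * X) * (a * T) := by
    rw [hA2]
    have h2 : Y * H2 ≤ 4 * T := by
      have h3 : Y * H2 ≤ Y * (2 * √(n : ℝ)) := mul_le_mul_of_nonneg_left hH2 hY0
      have h4 : Y * (2 * √(n : ℝ)) = 2 * (Y * √(n : ℝ)) := by ring
      rw [h4] at h3
      rw [hT]
      linarith
    have h3 : w * (Y * H2) ≤ a * (4 * T) := by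
      refine mul_le_mul hw1 h2 ?_ (by linarith)
      have : 0 ≤ H2 := by
        rw [hH2d]; exact Finset.sum_nonneg fun i _ => by positivity
      positivity
    have h4 := mul_le_mul_of_nonneg_left h3 (by positivity : 0 ≤ β ^ 2 * (19 * X))
    linarith
  have k4 : 9 / 2 * U ≤ 9 / 2 * (a * T) := by
    refine mul_le_mul_of_nonneg_left ?_ (by norm_num)
    have : U ≤ 1 * T := by rw [hT]; linarith
    exact this.trans (mul_le_mul_of_nonneg_right ha1 hT0)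
  have k5 : β ^ 2 / 4 ≤ β ^ 2 / 4 * b := le_mul_of_one_le_right (by positivity) hb1
  have haT : 0 ≤ a * T := by positivity
  have e : (9 / 2 + β ^ 2 / 4 + β ^ 2 + β ^ 2 * (11 + 76 * X)) * a * (n / l + Z + U) =
      9 / 2 * (a * T) + (β ^ 2 / 4 + β ^ 2) * (a * T) + β ^ 2 * 11 * (a * T) +
        β ^ 2 * (76 * X) * (a * T) := by rw [hT]; ring
  have e' : (9 / 2 + β ^ 2 / 4 + β ^ 2 + β ^ 2 * (11 + 76 * X)) * b =
      β ^ 2 * b + β ^ 2 / 4 * b + (9 / 2 + β ^ 2 * (11 + 76 * X)) * b := by ring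
  rw [e, e']
  have k6 : 0 ≤ (β ^ 2 / 4 + β ^ 2) * (a * T) := by positivity
  have k7 : 0 ≤ (9 / 2 + β ^ 2 * (11 + 76 * X)) * b := by positivity
  linarith

end Vale.Agent.P146.R3.A
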