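import Mathlib
import Vale.Agent.P146.R3.H749.Rate

/-!
# P146-S, R7 (A-v4): the rate for every exponent `r`
-/

open MeasureTheory ProbabilityTheory Filter Topology

namespace Vale.Agent.P146.R3.A

set_option linter.all false

open Vale.Agent.P157.Par (Path Exponents incr spinPart)
open Vale.Agent.P146 (Pair freeEnergy disorder)
open Vale.Agent.P146.Sk (PSK)
open Vale.Agent.P146.Ub Vale.Agent.P146.Ub.Ld Vale.Agent.P146.Sx

/-- `(1/r) log E exp(r F)` is nondecreasing in `r` -/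
theorem phi_mono (n : ℕ) (β : ℝ) {a b : ℝ} (ha : 0 < a) (hab : a ≤ b) :
    1 / a * Real.log (∫ g, Real.exp (a * freeEnergy n β g) ∂(disorder n)) ≤
      1 / b * Real.log (∫ g, Real.exp (b * freeEnergy n β g) ∂(disorder n)) := by
  have hb : 0 < b := ha.trans_le hab
  have ia := Sx.integrable_exp n β a
  have ib := Sx.integrable_exp n β b
  obtain ⟨A, hA⟩ : ∃ A, A = ∫ g, Real.exp (a * freeEnergy n β g) ∂(disorder n) := ⟨_, rfl⟩
  have hA0 : 0 < A := by rw [hA]; exact integral_exp_pos ia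
  have hc : 1 ≤ b / a := by rwa [one_le_div ha]
  have h1 : ∀ g, 1 + b / a * (Real.exp (a * freeEnergy n β g) / A - 1) ≤
      Real.exp (b * freeEnergy n β g) / A ^ (b / a) := by
    intro g
    have h2 := one_add_mul_self_le_rpow_one_add
      (s := Real.exp (a * freeEnergy n β g) / A - 1) (by
        have : 0 < Real.exp (a * freeEnergy n β g) / A := by positivity
        linarith) hc
    refine h2.trans (le_of_eq ?_)
    rw [add_sub_cancel, Real.div_rpow (Real.exp_pos _).le hA0.le, ← Real.exp_mul]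
    congr 2
    field_simp
  have i1 : Integrable (fun g => Real.exp (a * freeEnergy n β g) / A - 1) (disorder n) :=
    (ia.div_const A).sub (integrable_const _)
  have i2 : Integrable (fun g => b / a * (Real.exp (a * freeEnergy n β g) / A - 1))
    (disorder n) := i1.const_mul _
  have i3 : Integrable (fun g => 1 + b / a * (Real.exp (a * freeEnergy n β g) / A - 1))
    (disorder n) := (integrable_const _).add i2
  have h2 := integral_mono (μ := disorder n) i3 (ib.div_const (A ^ (b / a))) h1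
  have e1 : ∫ g, (Real.exp (a * freeEnergy n β g) / A - 1) ∂(disorder n) = 0 := by
    rw [integral_sub (ia.div_const A) (integrable_const _), integral_div, integral_const,
      probReal_univ, one_smul, ← hA, div_self hA0.ne', sub_self]
  rw [integral_add (integrable_const _) i2, integral_const_mul, e1, integral_const,
    probReal_univ, one_smul, mul_zero, add_zero, integral_div] at h2
  have hAc : 0 < A ^ (b / a) := Real.rpow_pos_of_pos hA0 _
  rw [one_le_div hAc] at h2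
  have h3 := Real.log_le_log hAc h2
  rw [Real.log_rpow hA0] at h3
  rw [← hA]
  have h4 := mul_le_mul_of_nonneg_left h3 (by positivity : 0 ≤ 1 / b)
  refine le_trans (le_of_eq ?_) h4
  field_simp

/-- `(1/r) log E exp(r F) ≥ 0` -/
theorem phi_nonneg {n : ℕ} (hn : 1 ≤ n) (β : ℝ) {r : ℝ} (hr : 0 < r) :
    0 ≤ 1 / r * Real.log (∫ g, Real.exp (r * freeEnergy n β g) ∂(disorder n)) := by
  obtain ⟨K, hK⟩ : ∃ K, K = ⌈1 / r⌉₊ := ⟨_, rfl⟩
  have hK1 : 1 ≤ K := by
    rw [hK]
    exact Nat.one_le_iff_ne_zero.2 (Nat.ceil_pos.2 (by positivity)).ne'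
  have h1 : me K 1 ≤ r := by
    unfold me
    push_cast
    have h2 : 1 / r ≤ K := by rw [hK]; exact Nat.le_ceil _
    rw [div_le_iff₀ (by positivity)]
    rw [div_le_iff₀ hr] at h2
    nlinarith
  have h2 := AN_zero (n := n) (K := K) (d := 1) le_rfl hK1 hn (me_exp K) β
  have h3 := rr_nonneg (n := n) (K := K) (d := 1) hK1 (me_exp K) β n (fun _ => 0)
  have h4 := phi_mono n β (me_pos (K := K) le_rfl) h1
  have h5 : 0 ≤ (n : ℝ) * Real.log 2 := by
    have : 0 ≤ Real.log 2 := Real.log_nonneg (by norm_num)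
    positivity
  linarith

/-- the numbers of `rate_r` -/
theorem rate_num {C w n l r r' y σ E P : ℝ} (hC : 0 ≤ C) (hw : 0 ≤ w) (hn : 1 ≤ n) (hr : 0 < r)
    (hr' : r / 2 ≤ r') (hy : 2 ≤ y) (hyr : y ^ 5 = r * n) (hl1 : y ≤ l) (hl2 : l ≤ 3 * y)
    (hσ : σ = 1 / y) (hyn : y ≤ n)
    (h : P ≤ E + C * (1 + w) * (n / l + √(l * n / r') / σ + n * l * σ ^ 2) + C * (1 + w)) :
    P ≤ E + 11 * C * (1 + w) * (n / y) := by
  have hy0 : 0 < y := by linarith
  have hn0 : 0 < n := by linarith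
  have hl0 : 0 < l := by linarith
  have hr'0 : 0 < r' := by linarith
  have h1 : n / l ≤ n / y := div_le_div_of_nonneg_left hn0.le hy0 hl1
  have h2 : √(l * n / r') / σ ≤ 3 * (n / y) := by
    rw [hσ, div_div_eq_mul_div, div_one]
    have h3 : l * n / r' ≤ 9 * (n / y ^ 2) ^ 2 := by
      rw [div_le_iff₀ hr'0]
      have h4 : l * n ≤ 3 * y * n := mul_le_mul_of_nonneg_right hl2 hn0.le
      have h5 : 9 * (n / y ^ 2) ^ 2 * (r / 2) ≤ 9 * (n / y ^ 2) ^ 2 * r' :=
        mul_le_mul_of_nonneg_left hr' (by positivity)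
      have h6 : 9 * (n / y ^ 2) ^ 2 * (r / 2) = 9 / 2 * (y * n) := by
        have : (n / y ^ 2) ^ 2 * r = y * n := by
          rw [div_pow]
          have e : n ^ 2 * r = n * y ^ 5 := by rw [hyr]; ring
          rw [div_mul_eq_mul_div, e]
          field_simp
        linear_combination (9 / 2 : ℝ) * this
      have h7 : 0 ≤ y * n := by positivity
      linarith
    have h8 : √(l * n / r') ≤ 3 * (n / y ^ 2) := by
      rw [Real.sqrt_le_left (by positivity)]
      refine h3.trans (le_of_eq ?_)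
      ring
    have h9 := mul_le_mul_of_nonneg_right h8 hy0.le
    refine h9.trans (le_of_eq ?_)
    field_simp
  have h3 : n * l * σ ^ 2 ≤ 3 * (n / y) := by
    rw [hσ]
    have h4 : n * l ≤ n * (3 * y) := mul_le_mul_of_nonneg_left hl2 hn0.le
    have h5 := mul_le_mul_of_nonneg_right h4 (by positivity : 0 ≤ (1 / y) ^ 2)
    refine h5.trans (le_of_eq ?_)
    field_simp
  have h4 : 1 ≤ n / y := by rwa [one_le_div hy0]
  have h5 : C * (1 + w) * (n / l + √(l * n / r') / σ + n * l * σ ^ 2) ≤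
      C * (1 + w) * (7 * (n / y)) :=
    mul_le_mul_of_nonneg_left (by linarith) (by positivity)
  have h6 : C * (1 + w) * 1 ≤ C * (1 + w) * (n / y) :=
    mul_le_mul_of_nonneg_left h4 (by positivity)
  have h7 : 0 ≤ C * (1 + w) * (n / y) := by positivity
  linarith

/-- **The rate for every exponent.** -/
theorem rate_r {β : ℝ} (hβ : 1 ≤ β) (hG : ∀ K d : ℕ, 1 ≤ d → d ≤ K → GStep2 K d β) :
    ∃ C : ℝ, 0 ≤ C ∧ ∀ n : ℕ, 1 ≤ n → ∀ r : ℝ, 0 < r → r ≤ 1 → 1 ≤ r ^ 6 * n →
      n * pv β ≤ 1 / r * Real.log (∫ g, Real.exp (r * freeEnergy n β g) ∂(disorder n)) +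
        C * (1 + Real.log n) * ((n : ℝ) ^ (4 / 5 : ℝ) * r ^ (-(1 / 5) : ℝ)) := by
  obtain ⟨C, hC0, hC⟩ := grate2_of hG
  refine ⟨2 * |pv β| + 33 * C, by positivity, ?_⟩
  intro n hn r hr0 hr1 hrn
  have hn1 : (1 : ℝ) ≤ n := by exact_mod_cast hn
  have hn0 : (0 : ℝ) < n := by linarith
  have hlog : 0 ≤ Real.log n := Real.log_nonneg hn1
  obtain ⟨y, hy⟩ : ∃ y : ℝ, y = (r * n) ^ (1 / 5 : ℝ) := ⟨_, rfl⟩
  have hrn0 : 0 < r * n := by positivity
  have hr6 : r ^ 6 ≤ r := by
    calc r ^ 6 ≤ r ^ 1 := pow_le_pow_of_le_one hr0.le hr1 (by norm_num)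
      _ = r := pow_one r
  have hrn1 : 1 ≤ r * n := hrn.trans (mul_le_mul_of_nonneg_right hr6 hn0.le)
  have hy1 : 1 ≤ y := by rw [hy]; exact Real.one_le_rpow hrn1 (by norm_num)
  have hy0 : 0 < y := by linarith
  have hy5 : y ^ 5 = r * n := by
    rw [hy, ← Real.rpow_natCast, ← Real.rpow_mul hrn0.le]
    norm_num
  have hny : (n : ℝ) ^ (4 / 5 : ℝ) * r ^ (-(1 / 5) : ℝ) = n / y := by
    rw [hy, Real.mul_rpow hr0.le hn0.le, Real.rpow_neg hr0.le]
    have e : (n : ℝ) = (n : ℝ) ^ (4 / 5 : ℝ) * (n : ℝ) ^ (1 / 5 : ℝ) := by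
      rw [← Real.rpow_add hn0]
      norm_num
    have h1 : 0 < (n : ℝ) ^ (1 / 5 : ℝ) := Real.rpow_pos_of_pos hn0 _
    have h2 : 0 < r ^ (1 / 5 : ℝ) := Real.rpow_pos_of_pos hr0 _
    rw [eq_div_iff (by positivity)]
    conv_rhs => rw [e]
    field_simp
  rw [hny]
  have hyn : y ≤ n := by
    have h1 : y ≤ y ^ 5 := le_self_pow₀ hy1 (by norm_num)
    have h2 : r * n ≤ 1 * n := mul_le_mul_of_nonneg_right hr1 hn0.le
    linarith
  have hry : 1 ≤ r * y := by
    have h1 : 1 ≤ (r * y) ^ 5 := by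
      rw [mul_pow, hy5]
      calc (1 : ℝ) ≤ r ^ 6 * n := hrn
        _ = r ^ 5 * (r * n) := by ring
    by_contra h
    push Not at h
    have h2 : (r * y) ^ 5 < 1 := pow_lt_one₀ (by positivity) h (by norm_num)
    linarith
  obtain ⟨E, hE⟩ : ∃ E : ℝ, E = 1 / r * Real.log (∫ g, Real.exp (r * freeEnergy n β g)
    ∂(disorder n)) := ⟨_, rfl⟩
  have hE0 : 0 ≤ E := by rw [hE]; exact phi_nonneg hn β hr0
  rw [← hE]
  have hT0 : 0 ≤ (1 + Real.log n) * (n / y) := by positivity
  rcases lt_or_ge y 2 with h2 | h2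
  · have h3 : (n : ℝ) ≤ 2 * (n / y) := by
      rw [mul_div_assoc', le_div_iff₀ hy0]
      nlinarith
    have h4 : n * pv β ≤ 2 * |pv β| * (n / y) := by
      have h5 : (n : ℝ) * pv β ≤ n * |pv β| := mul_le_mul_of_nonneg_left (le_abs_self _) hn0.le
      have h6 := mul_le_mul_of_nonneg_right h3 (abs_nonneg (pv β))
      linarith
    have h5 : 2 * |pv β| * (n / y) ≤ 2 * |pv β| * ((1 + Real.log n) * (n / y)) := by
      refine mul_le_mul_of_nonneg_left ?_ (by positivity)
      exact le_mul_of_one_le_left (by positivity) (by linarith)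
    have h6 : 0 ≤ 33 * C * ((1 + Real.log n) * (n / y)) := by positivity
    have e : (2 * |pv β| + 33 * C) * (1 + Real.log n) * (n / y) =
        2 * |pv β| * ((1 + Real.log n) * (n / y)) + 33 * C * ((1 + Real.log n) * (n / y)) := by
      ring
    rw [e]
    linarith
  · obtain ⟨K, hK⟩ : ∃ K, K = ⌈y⌉₊ := ⟨_, rfl⟩
    have hK1 : y ≤ K := by rw [hK]; exact Nat.le_ceil _
    have hK2 : (K : ℝ) < y + 1 := by rw [hK]; exact Nat.ceil_lt_add_one hy0.le
    have hKr : (1 : ℝ) ≤ K := by linarith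
    have hK1' : 1 ≤ K := by exact_mod_cast hKr
    obtain ⟨d, hd⟩ : ∃ d, d = min ⌊r * ((K : ℝ) + 1)⌋₊ K := ⟨_, rfl⟩
    have hrK : 1 ≤ r * ((K : ℝ) + 1) := by
      have : r * y ≤ r * ((K : ℝ) + 1) := mul_le_mul_of_nonneg_left (by linarith) hr0.le
      linarith
    have hd1 : 1 ≤ d := by
      rw [hd]
      exact le_min (Nat.le_floor (by exact_mod_cast hrK)) hK1'
    have hdK : d ≤ K := by rw [hd]; exact min_le_right _ _
    have hd2 : (d : ℝ) ≤ r * ((K : ℝ) + 1) := by
      have h3 : (d : ℝ) ≤ (⌊r * ((K : ℝ) + 1)⌋₊ : ℝ) := by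
        exact_mod_cast (by rw [hd]; exact min_le_left _ _ : d ≤ ⌊r * ((K : ℝ) + 1)⌋₊)
      exact h3.trans (Nat.floor_le (by positivity))
    have hd3 : r / 2 * ((K : ℝ) + 1) ≤ d := by
      have h3 : r / 2 * ((K : ℝ) + 1) ≤ (⌊r * ((K : ℝ) + 1)⌋₊ : ℝ) := by
        have h4 := Nat.lt_floor_add_one (r * ((K : ℝ) + 1))
        have h5 : (1 : ℝ) ≤ (⌊r * ((K : ℝ) + 1)⌋₊ : ℝ) := by
          exact_mod_cast Nat.le_floor (by exact_mod_cast hrK)
        linarith
      have h4 : r / 2 * ((K : ℝ) + 1) ≤ K := by nlinarith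
      rw [hd]
      push_cast
      exact le_min h3 h4
    have hmed : me K d = d / ((K : ℝ) + 1) := by unfold me; push_cast; rfl
    have hKp : (0 : ℝ) < (K : ℝ) + 1 := by positivity
    have hm1 : me K d ≤ r := by rw [hmed, div_le_iff₀ hKp]; exact hd2
    have hm2 : r / 2 ≤ me K d := by rw [hmed, le_div_iff₀ hKp]; exact hd3
    have hm0 : 0 < me K d := me_pos hd1
    have hσ1 : 1 / y ≤ 1 := by rw [div_le_one hy0]; exact hy1
    have hσn : 1 ≤ 1 / y * me K d * n := by
      have h3 : 1 / y * (r / 2) * n ≤ 1 / y * me K d * n :=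
        mul_le_mul_of_nonneg_right (mul_le_mul_of_nonneg_left hm2 (by positivity)) hn0.le
      have h4 : 1 / y * (r / 2) * n = y ^ 4 / 2 := by
        have : r * n = y ^ 5 := hy5.symm
        field_simp
        linarith
      have h5 : (2 : ℝ) ^ 4 ≤ y ^ 4 := pow_le_pow_left₀ (by norm_num) h2 4
      rw [h4] at h3
      linarith
    have h := hC K d (sInf (vals β)) hd1 hdK (fun q hq hq1 _ =>
      csInf_le (Ld.cor_bdd hβ) ⟨K, me K, q, by rw [Ld.cor_me]; exact Pw2.gm_exponents K, hq, hq1,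
        rfl⟩) n hn (1 / y) (by positivity) hσ1 hσn
    have hmono := phi_mono n β hm0 hm1
    rw [← hE] at hmono
    have hlK : Real.log ((K : ℝ) + 1) ≤ 2 + 3 * Real.log n := by
      have h3 : (K : ℝ) + 1 ≤ 3 * n := by linarith
      have h4 := Real.log_le_log hKp h3
      rw [Real.log_mul (by norm_num) hn0.ne'] at h4
      have h5 : Real.log 3 ≤ 2 := by
        have := Real.log_le_sub_one_of_pos (by norm_num : (0 : ℝ) < 3)
        linarith
      linarith
    have hlK0 : 0 ≤ Real.log ((K : ℝ) + 1) := Real.log_nonneg (by linarith)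
    have h3 : C * (1 + Real.log ((K : ℝ) + 1)) * (n / ((K : ℝ) + 1) +
        √(((K : ℝ) + 1) * n / me K d) / (1 / y) + n * ((K : ℝ) + 1) * (1 / y) ^ 2) ≤
        C * (1 + (2 + 3 * Real.log n)) * (n / ((K : ℝ) + 1) +
        √(((K : ℝ) + 1) * n / me K d) / (1 / y) + n * ((K : ℝ) + 1) * (1 / y) ^ 2) := by
      refine mul_le_mul_of_nonneg_right (mul_le_mul_of_nonneg_left (by linarith) hC0) ?_
      positivity
    have h4 : C * (1 + Real.log n) ≤ C * (1 + (2 + 3 * Real.log n)) :=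
      mul_le_mul_of_nonneg_left (by linarith) hC0
    have h5 : n * pv β ≤ E + C * (1 + (2 + 3 * Real.log n)) * (n / ((K : ℝ) + 1) +
        √(((K : ℝ) + 1) * n / me K d) / (1 / y) + n * ((K : ℝ) + 1) * (1 / y) ^ 2) +
        C * (1 + (2 + 3 * Real.log n)) := by
      have e2 : (n : ℝ) * pv β = n * (Real.log 2 + sInf (vals β)) := rfl
      rw [e2]
      linarith
    have h6 := rate_num hC0 (by positivity) hn1 hr0 hm2 h2 hy5 (by linarith) (by linarith) rfl
      hyn h5
    have e : (2 * |pv β| + 33 * C) * (1 + Real.log n) * (n / y) =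
        2 * |pv β| * ((1 + Real.log n) * (n / y)) + 33 * C * ((1 + Real.log n) * (n / y)) := by
      ring
    have e3 : 11 * C * (1 + (2 + 3 * Real.log n)) * (n / y) =
        33 * C * ((1 + Real.log n) * (n / y)) := by ring
    have h7 : 0 ≤ 2 * |pv β| * ((1 + Real.log n) * (n / y)) := by positivity
    rw [e]
    rw [e3] at h6
    linarith

end Vale.Agent.P146.R3.A
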