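import Mathlib
import Vale.Agent.P146.R3.H749.ADef

/-!
# P146-S, R7 (A-ii): two systems with the same fields

`S` and `S'` have the same fields; the fields of `S` are concentrated (in L²) around their means
in `S'`. Then `u_l` is close to the overlap path of `S'`, and the sum over the levels of the
weighted overlaps telescopes.
-/

open MeasureTheory ProbabilityTheory Filter Topology

namespace Vale.Agent.P146.R3.A

set_option linter.all false

open Vale.Agent.P157 Vale.Agent.P157.Lv Vale.Agent.P157.Lv.Sy Vale.Agent.P157.Lv.Fld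
open Vale.Agent.P146.Ub Vale.Agent.P146.Ub.Ld

section gen

variable {ι X : Type} [Fintype ι] [DecidableEq ι] [Fintype X] [DecidableEq X] [Nonempty X] {N : ℕ}
  {S S' : Sy ι X} {D D' : ι → (ι → ℝ) → X → ℝ} {φ : X → Fin N → ℝ} {zc : ℕ → Fin N → ι}
  {s : ℕ → ℝ}

/-- the covariance of the field `j` (centred in `S'`) with an observable, divided by the strength -/
noncomputable def ag (S S' : Sy ι X) (φ : X → Fin N → ℝ) (zc : ℕ → Fin N → ι) (s : ℕ → ℝ) (j : ℕ)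
    (w : (ι → ℝ) → X → ℝ) : ℝ :=
  if j ≤ S.K then S.Ex (fun z x => (hz φ zc j z x - S'.Ex (hz φ zc j)) * w z x) / s j else 0

/-- the covariance of an observable with `u_k - R'_k` -/
noncomputable def aB (S S' : Sy ι X) (φ : X → Fin N → ℝ) (k : ℕ) (w : (ι → ℝ) → X → ℝ) : ℝ :=
  S.Ex (fun z x => w z x * (uu S φ k z x - S'.Rl φ k))

theorem a_cst (c : ℝ) : Nh (ι := ι) (X := X) (fun _ _ => c) := Nh.fst (EG.const c)

theorem a_cs (hS : S.Reg) {f g : (ι → ℝ) → X → ℝ} (hf : Nh f) (hg : Nh g) :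
    |S.Ex (fun z x => f z x * g z x)| ≤
      √(S.Ex (fun z x => f z x ^ 2)) * √(S.Ex (fun z x => g z x ^ 2)) := by
  have h0 : 0 ≤ S.Ex (fun z x => g z x ^ 2) := by
    rw [← hS.Ex_const 0]
    exact hS.Ex_mono (a_cst 0) (Nh.pow hg 2) fun z x => sq_nonneg _
  rw [← Real.sqrt_mul' _ h0]
  exact Real.abs_le_sqrt (hS.Ex_cs hf hg)

theorem af_nonneg (j : ℕ) : 0 ≤ af S S' φ zc j := by
  unfold af
  split_ifs
  · exact Real.sqrt_nonneg _
  · exact le_rfl

theorem ag_sub (F : Fld S D φ zc s) (j : ℕ) {w w' : (ι → ℝ) → X → ℝ} (hw : Nh w) (hw' : Nh w') :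
    ag S S' φ zc s j (fun z x => w z x - w' z x) =
      ag S S' φ zc s j w - ag S S' φ zc s j w' := by
  have hS := F.hreg
  have nh : Nh (fun z x => hz φ zc j z x - S'.Ex (hz φ zc j)) := Nh.sub (F.nh_hz j) (a_cst _)
  unfold ag
  split_ifs
  · have e : (fun z x => (hz φ zc j z x - S'.Ex (hz φ zc j)) * (w z x - w' z x)) =
        fun z x => (hz φ zc j z x - S'.Ex (hz φ zc j)) * w z x -
          (hz φ zc j z x - S'.Ex (hz φ zc j)) * w' z x := by
      funext z x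
      ring
    rw [e, hS.Ex_sub (Nh.mul nh hw) (Nh.mul nh hw'), sub_div]
  · rw [sub_zero]

theorem aB_sub (F : Fld S D φ zc s) {k : ℕ} (hk : k ≤ S.K) {w w' : (ι → ℝ) → X → ℝ} (hw : Nh w)
    (hw' : Nh w') :
    aB S S' φ k (fun z x => w z x - w' z x) = aB S S' φ k w - aB S S' φ k w' := by
  have hS := F.hreg
  have nh : Nh (fun z x => uu S φ k z x - S'.Rl φ k) := Nh.sub (nh_uu hS hk) (a_cst _)
  unfold aB
  have e : (fun z x => (w z x - w' z x) * (uu S φ k z x - S'.Rl φ k)) =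
      fun z x => w z x * (uu S φ k z x - S'.Rl φ k) - w' z x * (uu S φ k z x - S'.Rl φ k) := by
    funext z x
    ring
  rw [e, hS.Ex_sub (Nh.mul hw nh) (Nh.mul hw' nh)]

theorem aB_eq (F : Fld S D φ zc s) {k : ℕ} (hk : k ≤ S.K) {w : (ι → ℝ) → X → ℝ} (hw : Nh w) :
    aB S S' φ k w = S.Ex (fun z x => w z x * uu S φ k z x) - S'.Rl φ k * S.Ex w := by
  have hS := F.hreg
  have nu := nh_uu (φ := φ) hS hk
  unfold aB
  have e : (fun z x => w z x * (uu S φ k z x - S'.Rl φ k)) =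
      fun z x => w z x * uu S φ k z x - S'.Rl φ k * w z x := by
    funext z x
    ring
  rw [e, hS.Ex_sub (Nh.mul hw nu) (Nh.const_mul _ hw), Sy.Ex_const_mul]

theorem ag_le (F : Fld S D φ zc s) {σ : ℝ} (hσ : 0 < σ) {j : ℕ} (hs : j ≤ S.K → σ ≤ s j)
    {w : (ι → ℝ) → X → ℝ} (hw : Nh w) :
    |ag S S' φ zc s j w| ≤ af S S' φ zc j * √(S.Ex (fun z x => w z x ^ 2)) / σ := by
  have hS := F.hreg
  have nh : Nh (fun z x => hz φ zc j z x - S'.Ex (hz φ zc j)) := Nh.sub (F.nh_hz j) (a_cst _)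
  unfold ag af
  split_ifs with h
  · have h1 := hs h
    have h2 : 0 < s j := hσ.trans_le h1
    rw [abs_div, abs_of_pos h2]
    refine div_le_div₀ (by positivity) (a_cs hS nh hw) hσ h1
  · rw [abs_zero, zero_mul, zero_div]

/-- **The identity** (integration by parts): the covariance with the field `j`. -/
theorem ag_eq (F : Fld S D φ zc s) (F' : Fld S' D' φ zc s) (hK : S'.K = S.K) (hm : S'.m = S.m)
    {j : ℕ} (hj : j ≤ S.K) (hsj : s j ≠ 0) {u : (ι → ℝ) → X → ℝ}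
    {u' : Fin N → (ι → ℝ) → X → ℝ}
    (hd : ∀ i x, PD (zc j i) (fun z => u z x) (fun z => s j * u' i z x)) (hu : Nh u)
    (hu' : ∀ i, Nh (u' i)) :
    ag S S' φ zc s j u = S.Ex (fun z x => 1 / (N : ℝ) * ∑ i, φ x i * u' i z x) -
      ∑ k ∈ Finset.Ico j (S.K + 1), S.p k * aB S S' φ k u := by
  have hS := F.hreg
  have h1 := F.Ex_hz_mul hj (u := u) (u' := fun i z x => s j * u' i z x) hd hu
    (fun i => Nh.const_mul _ (hu' i))
  have h2 : S.Ex (fun z x => 1 / (N : ℝ) * ∑ i, φ x i * (s j * u' i z x)) =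
      s j * S.Ex (fun z x => 1 / (N : ℝ) * ∑ i, φ x i * u' i z x) := by
    rw [← Sy.Ex_const_mul]
    congr 1
    funext z x
    rw [Finset.mul_sum, Finset.mul_sum, Finset.mul_sum]
    refine Finset.sum_congr rfl fun b _ => ?_
    ring
  have h3 : S'.Ex (hz φ zc j) =
      s j * (1 - ∑ i ∈ Finset.Ico j (S.K + 1), S.p i * S'.Rl φ i) := by
    have h4 := F'.Ex_hz (l := j) (by rw [hK]; exact hj)
    rw [hK] at h4
    have h5 : ∀ i, S'.p i = S.p i := fun i => by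
      show S'.m (i + 1) - S'.m i = S.m (i + 1) - S.m i
      rw [hm]
    simp only [h5] at h4
    exact h4
  obtain ⟨G, hG⟩ : ∃ G, G = S.Ex (fun z x => 1 / (N : ℝ) * ∑ i, φ x i * u' i z x) := ⟨_, rfl⟩
  rw [h2, ← hG] at h1
  rw [← hG]
  unfold ag
  rw [if_pos hj]
  have e : (fun z x => (hz φ zc j z x - S'.Ex (hz φ zc j)) * u z x) =
      fun z x => hz φ zc j z x * u z x - S'.Ex (hz φ zc j) * u z x := by
    funext z x
    ring
  rw [e, hS.Ex_sub (Nh.mul (F.nh_hz j) hu) (Nh.const_mul _ hu), Sy.Ex_const_mul, h1, h3]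
  have h6 : ∑ k ∈ Finset.Ico j (S.K + 1), S.p k * aB S S' φ k u =
      ∑ k ∈ Finset.Ico j (S.K + 1), S.p k * S.Ex (fun z x => u z x * uu S φ k z x) -
        (∑ k ∈ Finset.Ico j (S.K + 1), S.p k * S'.Rl φ k) * S.Ex u := by
    rw [Finset.sum_mul, ← Finset.sum_sub_distrib]
    refine Finset.sum_congr rfl fun k hk => ?_
    rw [aB_eq F (by have := Finset.mem_Ico.1 hk; omega) hu]
    ring
  rw [h6]
  field_simp
  ring

/-- above the level of the observable -/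
theorem ag_eq_dep (F : Fld S D φ zc s) (F' : Fld S' D' φ zc s) (hK : S'.K = S.K)
    (hm : S'.m = S.m) {l j : ℕ} (hlj : l < j) (hsj : j ≤ S.K → s j ≠ 0) {u : (ι → ℝ) → X → ℝ}
    (hu : Nh u) (hdep : ∀ x, Dep S.lev l (fun z => u z x)) :
    ag S S' φ zc s j u = -∑ k ∈ Finset.Ico j (S.K + 1), S.p k * aB S S' φ k u := by
  have hS := F.hreg
  rcases Nat.lt_or_ge S.K j with hj | hj
  · unfold ag
    rw [if_neg (by omega), Finset.Ico_eq_empty (by omega), Finset.sum_empty, neg_zero]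
  · have h := ag_eq F F' hK hm hj (hsj hj) (u := u) (u' := fun _ _ _ => 0)
      (fun i x => by
        have h1 := Dep.pd (hdep x) (e := zc j i) (by rw [F.lev j hj i]; exact hlj)
        refine h1.congr fun z => ?_
        rw [mul_zero]) hu (fun i => a_cst 0)
    rw [h]
    have e : (fun (z : ι → ℝ) (x : X) => 1 / (N : ℝ) * ∑ i, φ x i * (0 : ℝ)) = fun _ _ => 0 := by
      funext z x
      simp
    rw [e, hS.Ex_const, zero_sub]

/-- the difference of two consecutive levels, above the level of the observable -/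
theorem ag_step_dep (F : Fld S D φ zc s) (F' : Fld S' D' φ zc s) (hK : S'.K = S.K)
    (hm : S'.m = S.m) {l j : ℕ} (hlj : l < j) (hj : j ≤ S.K) (hsj : s j ≠ 0)
    (hsj' : j + 1 ≤ S.K → s (j + 1) ≠ 0) {u : (ι → ℝ) → X → ℝ}
    (hu : Nh u) (hdep : ∀ x, Dep S.lev l (fun z => u z x)) :
    S.p j * aB S S' φ j u = ag S S' φ zc s (j + 1) u - ag S S' φ zc s j u := by
  rw [ag_eq_dep F F' hK hm hlj (fun _ => hsj) hu hdep,
    ag_eq_dep F F' hK hm (show l < j + 1 by omega) hsj' hu hdep,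
    Finset.sum_eq_sum_Ico_succ_bot (show j < S.K + 1 by omega)]
  ring

theorem a_sq_le (hS : S.Reg) {f : (ι → ℝ) → X → ℝ} (hf : Nh f) :
    |S.Ex f| ≤ √(S.Ex (fun z x => f z x ^ 2)) := by
  have h := a_cs hS hf (a_cst (ι := ι) (X := X) 1)
  simp only [mul_one, one_pow, hS.Ex_const, Real.sqrt_one] at h
  exact h

/-- the increments of `u_l` -/
theorem a_uu_diff (F : Fld S D φ zc s) {l : ℕ} (hl : l < S.K) :
    S.Ex (fun z x => (uu S φ l z x - uu S φ (l + 1) z x) ^ 2) ≤ S.Rl φ (l + 1) - S.Rl φ l := by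
  have hS := F.hreg
  have hN := F.N_pos
  have hlK := hl.le
  have nu := nh_uu (φ := φ) hS hlK
  have nu' := nh_uu (φ := φ) hS (show l + 1 ≤ S.K from hl)
  rw [← F.Rl_sub hl, ← Sy.Ex_const_mul]
  refine hS.Ex_mono (Nh.pow (Nh.sub nu nu') 2) (Nh.fst (EG.const_mul _ (EG.sum _ fun i _ =>
    ((eg_mg hS (show l + 1 ≤ S.K from hl) i).sub (eg_mg hS hlK i)).pow 2))) fun z x => ?_
  have e1 : uu S φ l z x - uu S φ (l + 1) z x =
      -(1 / N * ∑ a, (S.mg φ (l + 1) a z - S.mg φ l a z) * φ x a) := by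
    simp_rw [uu, sub_mul]
    rw [Finset.sum_sub_distrib]
    ring
  rw [e1, neg_sq, mul_pow]
  have h1 := Finset.sum_mul_sq_le_sq_mul_sq Finset.univ
    (fun a => S.mg φ (l + 1) a z - S.mg φ l a z) (φ x)
  rw [F.norm] at h1
  calc (1 / (N : ℝ)) ^ 2 * (∑ a, (S.mg φ (l + 1) a z - S.mg φ l a z) * φ x a) ^ 2
      ≤ (1 / (N : ℝ)) ^ 2 * ((∑ a, (S.mg φ (l + 1) a z - S.mg φ l a z) ^ 2) * N) :=
        mul_le_mul_of_nonneg_left h1 (by positivity)
    _ = 1 / N * ∑ i, (S.mg φ (l + 1) i z - S.mg φ l i z) ^ 2 := by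
        field_simp

theorem a_Rl_mono (F : Fld S D φ zc s) {l : ℕ} (hl : l < S.K) : S.Rl φ l ≤ S.Rl φ (l + 1) := by
  have hS := F.hreg
  have h1 := a_uu_diff F hl
  have h2 : 0 ≤ S.Ex (fun z x => (uu S φ l z x - uu S φ (l + 1) z x) ^ 2) := by
    rw [← hS.Ex_const 0]
    exact hS.Ex_mono (a_cst 0)
      (Nh.pow (Nh.sub (nh_uu hS hl.le) (nh_uu hS (show l + 1 ≤ S.K from hl))) 2)
      fun z x => sq_nonneg _
  linarith

theorem aV_nonneg (F : Fld S D φ zc s) {l : ℕ} (hl : l ≤ S.K) : 0 ≤ aV S S' φ l := by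
  have hS := F.hreg
  unfold aV
  rw [← hS.Ex_const 0]
  exact hS.Ex_mono (a_cst 0) (Nh.pow (Nh.sub (nh_uu hS hl) (a_cst _)) 2) fun z x => sq_nonneg _

theorem Aii_V (F : Fld S D φ zc s) (F' : Fld S' D' φ zc s) (hK : S'.K = S.K) (hm : S'.m = S.m)
    {d : ℕ} {σ π : ℝ} (hσ : 0 < σ) (hπ : 0 < π) (hs : ∀ l, d ≤ l → l ≤ S.K → σ ≤ s l)
    (hp : ∀ l ≤ S.K, π ≤ S.p l) {l : ℕ} (hd : d ≤ l) (hl : l < S.K) :
    √(aV S S' φ l) ≤ √(S.Rl φ (l + 1) - S.Rl φ l) + (S'.Rl φ (l + 1) - S'.Rl φ l) +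
      (af S S' φ zc (l + 1) + af S S' φ zc (l + 2)) / (σ * π) := by
  have hS := F.hreg
  have hlK := hl.le
  have hl1 : l + 1 ≤ S.K := hl
  have nu := nh_uu (φ := φ) hS hlK
  have nu' := nh_uu (φ := φ) hS hl1
  obtain ⟨u, hu⟩ : ∃ u : (ι → ℝ) → X → ℝ, u = fun z x => uu S φ l z x - S'.Rl φ l := ⟨_, rfl⟩
  have nuu : Nh u := by rw [hu]; exact Nh.sub nu (a_cst _)
  have hdep : ∀ x, Dep S.lev l (fun z => u z x) := by
    intro x z w
    have h := w3_dep_uu S φ l x z w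
    simp only [hu] at h ⊢
    rw [h]
  have hV : aV S S' φ l = S.Ex (fun z x => u z x ^ 2) := by rw [hu]; rfl
  obtain ⟨v, hv⟩ : ∃ v, v = √(S.Ex (fun z x => u z x ^ 2)) := ⟨_, rfl⟩
  have hv0 : 0 ≤ v := by rw [hv]; exact Real.sqrt_nonneg _
  have hvv : v * v = S.Ex (fun z x => u z x ^ 2) := by
    rw [hv]
    refine Real.mul_self_sqrt ?_
    rw [← hV]
    exact aV_nonneg F hlK
  rw [hV, ← hv]
  have hσl : ∀ j, d ≤ j → j ≤ S.K → s j ≠ 0 := fun j h1 h2 => (hσ.trans_le (hs j h1 h2)).ne'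
  -- the next level
  have h1 := ag_step_dep F F' hK hm (l := l) (j := l + 1) (Nat.lt_succ_self l) hl1
    (hσl _ (by omega) hl1) (fun h => hσl _ (by omega) h) nuu hdep
  have h2 := ag_le (S' := S') F hσ (j := l + 1) (fun h => hs _ (by omega) h) nuu
  have h3 := ag_le (S' := S') F hσ (j := l + 2) (fun h => hs _ (by omega) h) nuu
  rw [← hv] at h2 h3
  have h4 : |aB S S' φ (l + 1) u| ≤
      v * ((af S S' φ zc (l + 1) + af S S' φ zc (l + 2)) / (σ * π)) := by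
    have h5 : S.p (l + 1) * |aB S S' φ (l + 1) u| ≤
        (af S S' φ zc (l + 1) + af S S' φ zc (l + 2)) * v / σ := by
      have h6 : 0 ≤ S.p (l + 1) := hπ.le.trans (hp _ hl1)
      rw [← abs_of_nonneg h6, ← abs_mul, h1]
      refine (abs_sub _ _).trans ?_
      have e : (af S S' φ zc (l + 1) + af S S' φ zc (l + 2)) * v / σ =
          af S S' φ zc (l + 2) * v / σ + af S S' φ zc (l + 1) * v / σ := by ring
      rw [e]
      exact add_le_add h3 h2
    have h7 := (mul_le_mul_of_nonneg_right (hp (l + 1) hl1)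
      (abs_nonneg (aB S S' φ (l + 1) u))).trans h5
    have e : v * ((af S S' φ zc (l + 1) + af S S' φ zc (l + 2)) / (σ * π)) =
        (af S S' φ zc (l + 1) + af S S' φ zc (l + 2)) * v / σ / π := by
      field_simp
    rw [e, le_div_iff₀ hπ, mul_comm]
    exact h7
  -- the decomposition
  have h5 : S.Ex (fun z x => u z x ^ 2) = aB S S' φ (l + 1) u +
      S.Ex (fun z x => u z x * (uu S φ l z x - uu S φ (l + 1) z x)) +
      (S'.Rl φ (l + 1) - S'.Rl φ l) * S.Ex u := by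
    have e : (fun z x => u z x ^ 2) = fun z x => (u z x * (uu S φ (l + 1) z x - S'.Rl φ (l + 1)) +
        u z x * (uu S φ l z x - uu S φ (l + 1) z x)) +
        (S'.Rl φ (l + 1) - S'.Rl φ l) * u z x := by
      funext z x
      simp only [hu]
      ring
    have n1 : Nh (fun z x => u z x * (uu S φ (l + 1) z x - S'.Rl φ (l + 1))) :=
      Nh.mul nuu (Nh.sub nu' (a_cst _))
    have n2 : Nh (fun z x => u z x * (uu S φ l z x - uu S φ (l + 1) z x)) :=
      Nh.mul nuu (Nh.sub nu nu')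
    rw [e, hS.Ex_add (Nh.add n1 n2) (Nh.const_mul _ nuu), hS.Ex_add n1 n2, Sy.Ex_const_mul]
    rfl
  have h6 : |S.Ex (fun z x => u z x * (uu S φ l z x - uu S φ (l + 1) z x))| ≤
      v * √(S.Rl φ (l + 1) - S.Rl φ l) := by
    rw [hv]
    refine (a_cs hS nuu (Nh.sub nu nu')).trans ?_
    exact mul_le_mul_of_nonneg_left (Real.sqrt_le_sqrt (a_uu_diff F hl)) (Real.sqrt_nonneg _)
  have h7 : |S.Ex u| ≤ v := by rw [hv]; exact a_sq_le hS nuu
  have h8 : S'.Rl φ l ≤ S'.Rl φ (l + 1) := a_Rl_mono F' (by rw [hK]; exact hl)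
  obtain ⟨A, hA⟩ : ∃ A, A = √(S.Rl φ (l + 1) - S.Rl φ l) + (S'.Rl φ (l + 1) - S'.Rl φ l) +
      (af S S' φ zc (l + 1) + af S S' φ zc (l + 2)) / (σ * π) := ⟨_, rfl⟩
  have hA0 : 0 ≤ A := by
    rw [hA]
    have a1 := af_nonneg (S := S) (S' := S') (φ := φ) (zc := zc) (l + 1)
    have a2 := af_nonneg (S := S) (S' := S') (φ := φ) (zc := zc) (l + 2)
    have a3 := Real.sqrt_nonneg (S.Rl φ (l + 1) - S.Rl φ l)
    have a4 : 0 ≤ (af S S' φ zc (l + 1) + af S S' φ zc (l + 2)) / (σ * π) := by positivity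
    linarith
  rw [← hA]
  have h9 : v * v ≤ v * A := by
    rw [hvv, h5]
    have b1 := (abs_le.1 h4).2
    have b2 := (abs_le.1 h6).2
    have b3 : (S'.Rl φ (l + 1) - S'.Rl φ l) * S.Ex u ≤ (S'.Rl φ (l + 1) - S'.Rl φ l) * v :=
      mul_le_mul_of_nonneg_left ((le_abs_self _).trans h7) (by linarith)
    rw [hA]
    linarith
  rcases hv0.eq_or_lt with h0 | h0
  · rw [← h0]
    exact hA0
  · exact le_of_mul_le_mul_left h9 h0

theorem Aii_D (F : Fld S D φ zc s) (F' : Fld S' D' φ zc s) (hK : S'.K = S.K) (hm : S'.m = S.m)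
    {d : ℕ} {σ : ℝ} (hσ : 0 < σ) (hs : ∀ l, d ≤ l → l ≤ S.K → σ ≤ s l)
    {l : ℕ} (hd : d ≤ l) (hl : l < S.K) :
    S.m (l + 1) * (gQ S φ l - gW S φ l) ≤ S.p l * aV S S' φ l +
      (af S S' φ zc l + af S S' φ zc (l + 1)) / σ * √(aV S S' φ l) := by
  have hS := F.hreg
  have hlK := hl.le
  have hl1 : l + 1 ≤ S.K := hl
  have nu := nh_uu (φ := φ) hS hlK
  obtain ⟨u, hu⟩ : ∃ u : (ι → ℝ) → X → ℝ, u = fun z x => uu S φ l z x - S'.Rl φ l := ⟨_, rfl⟩
  have nuu : Nh u := by rw [hu]; exact Nh.sub nu (a_cst _)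
  have hV : aV S S' φ l = S.Ex (fun z x => u z x ^ 2) := by rw [hu]; rfl
  have hσl : ∀ j, d ≤ j → j ≤ S.K → s j ≠ 0 := fun j h1 h2 => (hσ.trans_le (hs j h1 h2)).ne'
  have hsl := hσl l hd hlK
  -- (B)
  obtain ⟨a, ha⟩ : ∃ a : ℕ → ℝ, a = fun i => 1 / (N : ℝ) ^ 2 * S.Ex (fun z _ => ∑ a, ∑ b,
          S.T l (fun _ x => φ x a * φ x b) z * S.T l (fun z _ => S.mg φ i a z * S.mg φ i b z) z) :=
    ⟨_, rfl⟩
  have hp0 : ∀ i ≤ S.K, 0 ≤ S.p i := fun i hi => by
    rw [Sy.p]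
    linarith [hS.mono i hi]
  have hsum : ∑ i ∈ Finset.Ico (l + 1) (S.K + 1), S.p i = 1 - S.m (l + 1) := by
    have h1 : ∀ n, l + 1 ≤ n → ∑ i ∈ Finset.Ico (l + 1) n, S.p i = S.m n - S.m (l + 1) := by
      intro n hn
      induction n, hn using Nat.le_induction with
      | base => simp
      | succ n hn ih =>
        rw [Finset.sum_Ico_succ_top hn, ih, Sy.p]
        ring
    rw [h1 _ (by omega), hS.mK]
  have ha1 : ∑ i ∈ Finset.Ico (l + 1) (S.K + 1), S.p i * a i ≤ gQ S φ l * (1 - S.m (l + 1)) := by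
    rw [← hsum, Finset.mul_sum]
    refine Finset.sum_le_sum fun i hi => ?_
    rw [Finset.mem_Ico] at hi
    rw [mul_comm (gQ S φ l), ha]
    exact mul_le_mul_of_nonneg_left (F.three_le_two (by omega) (by omega)) (hp0 i (by omega))
  have hB : S.Ex (fun z x => hz φ zc l z x * uu S φ l z x) =
      s l * (gQ S φ l - ∑ i ∈ Finset.Ico (l + 1) (S.K + 1), S.p i * a i -
        S.m (l + 1) * gW S φ l + S.Rl φ l -
        ∑ i ∈ Finset.Ico l (S.K + 1), S.p i * S.Ex (fun z x => uu S φ l z x * uu S φ i z x)) := by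
    have e0 : gW S φ l = S.Ex (fun z x => (1 / N * ∑ a, S.mg φ l a z * φ x a) ^ 2) := by
      unfold gW
      congr 1
      funext z x
      rw [sq]
      rfl
    rw [e0, ha]
    exact F.ident_B hlK
  have hc : S'.Ex (hz φ zc l) =
      s l * (1 - ∑ i ∈ Finset.Ico l (S.K + 1), S.p i * S'.Rl φ i) := by
    have h4 := F'.Ex_hz (l := l) (by rw [hK]; exact hlK)
    rw [hK] at h4
    have h5 : ∀ i, S'.p i = S.p i := fun i => by
      show S'.m (i + 1) - S'.m i = S.m (i + 1) - S.m i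
      rw [hm]
    simp only [h5] at h4
    exact h4
  have g0 : ag S S' φ zc s l (uu S φ l) =
      gQ S φ l - ∑ i ∈ Finset.Ico (l + 1) (S.K + 1), S.p i * a i - S.m (l + 1) * gW S φ l -
        ∑ i ∈ Finset.Ico l (S.K + 1), S.p i * aB S S' φ i (uu S φ l) := by
    unfold ag
    rw [if_pos hlK]
    have e : (fun z x => (hz φ zc l z x - S'.Ex (hz φ zc l)) * uu S φ l z x) =
        fun z x => hz φ zc l z x * uu S φ l z x - S'.Ex (hz φ zc l) * uu S φ l z x := by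
      funext z x
      ring
    rw [e, hS.Ex_sub (Nh.mul (F.nh_hz l) nu) (Nh.const_mul _ nu), Sy.Ex_const_mul, hB, hc]
    have e1 : S.Ex (fun z x => uu S φ l z x) = S.Rl φ l := F.Ex_uu hlK
    rw [e1]
    have h6 : ∑ k ∈ Finset.Ico l (S.K + 1), S.p k * aB S S' φ k (uu S φ l) =
        ∑ k ∈ Finset.Ico l (S.K + 1), S.p k * S.Ex (fun z x => uu S φ l z x * uu S φ k z x) -
          (∑ k ∈ Finset.Ico l (S.K + 1), S.p k * S'.Rl φ k) * S.Rl φ l := by
      rw [Finset.sum_mul, ← Finset.sum_sub_distrib]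
      refine Finset.sum_congr rfl fun k hk => ?_
      rw [aB_eq F (by have := Finset.mem_Ico.1 hk; omega) nu, F.Ex_uu hlK]
      ring
    rw [h6]
    field_simp
    ring
  have g1 : ag S S' φ zc s (l + 1) (uu S φ l) =
      -∑ i ∈ Finset.Ico (l + 1) (S.K + 1), S.p i * aB S S' φ i (uu S φ l) :=
    ag_eq_dep F F' hK hm (Nat.lt_succ_self l) (fun h => hσl _ (by omega) h) nu
      (fun x => w3_dep_uu S φ l x)
  -- the constants
  have g2 : ∀ j, d ≤ j → j ≤ S.K → ag S S' φ zc s j (fun _ _ => 1) =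
      -∑ k ∈ Finset.Ico j (S.K + 1), S.p k * aB S S' φ k (fun _ _ => 1) := by
    intro j h1 h2
    have h := ag_eq F F' hK hm h2 (hσl j h1 h2) (u := fun _ _ => 1) (u' := fun _ _ _ => 0)
      (fun i x => (PD.const (1 : ℝ)).congr fun z => by rw [mul_zero]) (a_cst 1) (fun i => a_cst 0)
    rw [h]
    have e : (fun (z : ι → ℝ) (x : X) => 1 / (N : ℝ) * ∑ i, φ x i * (0 : ℝ)) = fun _ _ => 0 := by
      funext z x
      simp
    rw [e, hS.Ex_const, zero_sub]
  have g3 : ag S S' φ zc s (l + 1) (fun _ _ => 1) - ag S S' φ zc s l (fun _ _ => 1) =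
      S.p l * (S.Rl φ l - S'.Rl φ l) := by
    rw [g2 l hd hlK, g2 (l + 1) (by omega) hl1,
      Finset.sum_eq_sum_Ico_succ_bot (show l < S.K + 1 by omega),
      aB_eq F hlK (a_cst 1), hS.Ex_const]
    simp only [one_mul]
    have e1 : S.Ex (fun z x => uu S φ l z x) = S.Rl φ l := F.Ex_uu hlK
    rw [e1]
    ring
  -- the splitting of `u_l` into `u` and a constant
  have g4 : ∀ j, ag S S' φ zc s j (uu S φ l) =
      ag S S' φ zc s j u + S'.Rl φ l * ag S S' φ zc s j (fun _ _ => 1) := by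
    intro j
    have nh : Nh (fun z x => hz φ zc j z x - S'.Ex (hz φ zc j)) := Nh.sub (F.nh_hz j) (a_cst _)
    unfold ag
    split_ifs
    · have e : (fun z x => (hz φ zc j z x - S'.Ex (hz φ zc j)) * uu S φ l z x) =
          fun z x => (hz φ zc j z x - S'.Ex (hz φ zc j)) * u z x +
            S'.Rl φ l * ((hz φ zc j z x - S'.Ex (hz φ zc j)) * 1) := by
        funext z x
        simp only [hu]
        ring
      rw [e, hS.Ex_add (Nh.mul nh nuu) (Nh.const_mul _ (Nh.mul nh (a_cst 1))), Sy.Ex_const_mul]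
      ring
    · ring
  have g5 : aB S S' φ l (uu S φ l) = aV S S' φ l + S'.Rl φ l * (S.Rl φ l - S'.Rl φ l) := by
    have e : (fun z x => uu S φ l z x * (uu S φ l z x - S'.Rl φ l)) =
        fun z x => u z x ^ 2 + S'.Rl φ l * (uu S φ l z x - S'.Rl φ l) := by
      funext z x
      simp only [hu]
      ring
    unfold aB
    rw [e, hS.Ex_add (Nh.pow nuu 2) (Nh.const_mul _ (Nh.sub nu (a_cst _))), Sy.Ex_const_mul,
      hS.Ex_sub nu (a_cst _), hS.Ex_const, F.Ex_uu hlK, hV]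
  have h2 := ag_le (S' := S') F hσ (j := l) (fun h => hs _ hd h) nuu
  have h3 := ag_le (S' := S') F hσ (j := l + 1) (fun h => hs _ (by omega) h) nuu
  rw [← hV] at h2 h3
  have h4 : ag S S' φ zc s l u - ag S S' φ zc s (l + 1) u ≤
      (af S S' φ zc l + af S S' φ zc (l + 1)) / σ * √(aV S S' φ l) := by
    have b1 := (abs_le.1 h2).2
    have b2 := (abs_le.1 h3).1
    have e : (af S S' φ zc l + af S S' φ zc (l + 1)) / σ * √(aV S S' φ l) =
        af S S' φ zc l * √(aV S S' φ l) / σ + af S S' φ zc (l + 1) * √(aV S S' φ l) / σ := by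
      ring
    rw [e]
    linarith
  have g6 : ∑ i ∈ Finset.Ico l (S.K + 1), S.p i * aB S S' φ i (uu S φ l) =
      S.p l * aB S S' φ l (uu S φ l) +
        ∑ i ∈ Finset.Ico (l + 1) (S.K + 1), S.p i * aB S S' φ i (uu S φ l) :=
    Finset.sum_eq_sum_Ico_succ_bot (show l < S.K + 1 by omega) _
  have g7 := g4 l
  have g8 := g4 (l + 1)
  rw [g6, g5] at g0
  obtain ⟨x1, hx1⟩ : ∃ x, x = ∑ i ∈ Finset.Ico (l + 1) (S.K + 1), S.p i * aB S S' φ i (uu S φ l) :=
    ⟨_, rfl⟩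
  obtain ⟨x2, hx2⟩ : ∃ x, x = ∑ i ∈ Finset.Ico (l + 1) (S.K + 1), S.p i * a i := ⟨_, rfl⟩
  rw [← hx1] at g0 g1
  rw [← hx2] at g0 ha1
  have e9 : gQ S φ l * (1 - S.m (l + 1)) = gQ S φ l - S.m (l + 1) * gQ S φ l := by ring
  have e10 : S.m (l + 1) * (gQ S φ l - gW S φ l) =
      S.m (l + 1) * gQ S φ l - S.m (l + 1) * gW S φ l := by ring
  have e11 : S.p l * (aV S S' φ l + S'.Rl φ l * (S.Rl φ l - S'.Rl φ l)) =
      S.p l * aV S S' φ l + S'.Rl φ l * (S.p l * (S.Rl φ l - S'.Rl φ l)) := by ring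
  rw [e9] at ha1
  rw [e10]
  rw [e11, ← g3, mul_sub] at g0
  linarith only [ha1, g0, g1, g7, g8, h4]

/-- the observable `w_k`, the field `j ≤ k` -/
theorem a_gw (F : Fld S D φ zc s) (F' : Fld S' D' φ zc s) (hK : S'.K = S.K) (hm : S'.m = S.m)
    {j k : ℕ} (hjk : j < k) (hk : k ≤ S.K) (hsj : s j ≠ 0) (hsj' : s (j + 1) ≠ 0) (ε : X → ℝ) :
    S.p j * aB S S' φ j (gw S ε k) =
      ag S S' φ zc s (j + 1) (gw S ε k) - ag S S' φ zc s j (gw S ε k) := by
  have hS := F.hreg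
  have nw := Ld.nh_gw hS ε hk
  have ng : ∀ i, EG (S.T k (gwi S φ ε k i)) := fun i => hS.eg_T hk (nh_gwi hS ε hk i)
  have key : ∀ i, i ≤ k → s i ≠ 0 → ag S S' φ zc s i (gw S ε k) =
      S.Ex (fun z x => 1 / (N : ℝ) * ∑ b, φ x b * (S.T k (gwi S φ ε k b) z * ε x)) -
      ∑ a ∈ Finset.Ico i (S.K + 1), S.p a * aB S S' φ a (gw S ε k) := by
    intro i hik hsi
    refine ag_eq F F' hK hm (hik.trans hk) hsi (u := gw S ε k)
      (u' := fun b z x => S.T k (gwi S φ ε k b) z * ε x) (fun b x => ?_) nw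
      (fun b => Nh.mul (Nh.fst (ng b)) (Nh.snd ε))
    refine ((gw1_pd F ε hik hk b).mul (PD.const (ε x))).congr fun y => ?_
    rw [mul_zero, add_zero]
    ring
  rw [key j hjk.le hsj, key (j + 1) hjk hsj',
    Finset.sum_eq_sum_Ico_succ_bot (show j < S.K + 1 by omega)]
  ring

theorem a_gw_sq (F : Fld S D φ zc s) {ε : X → ℝ} (hε : ∀ x, |ε x| ≤ 1) {k : ℕ} (hk : k ≤ S.K) :
    √(S.Ex (fun z x => gw S ε k z x ^ 2)) ≤ 1 := by
  have hS := F.hreg
  rw [Real.sqrt_le_one]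
  have h := hS.Ex_mono (Nh.pow (Ld.nh_gw hS ε hk) 2) (a_cst (ι := ι) (X := X) 1) fun z x => by
    exact (sq_le_one_iff_abs_le_one _).2 (gw1_abs hS hε hk z x)
  rwa [hS.Ex_const] at h

theorem Aii_J (F : Fld S D φ zc s) (F' : Fld S' D' φ zc s) (hK : S'.K = S.K) (hm : S'.m = S.m)
    {d : ℕ} {σ : ℝ} (hσ : 0 < σ) (hs : ∀ l, d ≤ l → l ≤ S.K → σ ≤ s l) (hd : d ≤ S.K)
    {ε : X → ℝ} (hε : ∀ x, |ε x| ≤ 1) :
    |∑ l ∈ Finset.Ico d S.K, S.p l *
      S.pairEx l (fun x x' => ε x * ε x' * (Rov φ x x' - S'.Rl φ l))| ≤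
      ∑ l ∈ Finset.Ico d S.K, S.p l * (√(gQ S φ l - gW S φ l) +
        √(S.Ex (gw S ε (l + 1)) - S.Ex (gw S ε l)) * √(aV S S' φ l)) +
      3 * √(∑ j ∈ Finset.Ico d (S.K + 1), af S S' φ zc j ^ 2) / σ := by
  have hS := F.hreg
  have hσl : ∀ j, d ≤ j → j ≤ S.K → s j ≠ 0 := fun j h1 h2 => (hσ.trans_le (hs j h1 h2)).ne'
  obtain ⟨G, hG⟩ : ∃ G, G = √(∑ j ∈ Finset.Ico d (S.K + 1), af S S' φ zc j ^ 2) := ⟨_, rfl⟩
  have hf0 := fun j => af_nonneg (S := S) (S' := S') (φ := φ) (zc := zc) j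
  -- each level
  have h1 : ∀ l ∈ Finset.Ico d S.K, S.p l *
      S.pairEx l (fun x x' => ε x * ε x' * (Rov φ x x' - S'.Rl φ l)) =
      S.p l * (S.pairEx l (fun x x' => ε x * ε x' * Rov φ x x') -
        S.Ex (fun z x => gw S ε l z x * uu S φ l z x)) +
      S.p l * aB S S' φ l (fun z x => gw S ε l z x - gw S ε (l + 1) z x) +
      (ag S S' φ zc s (l + 1) (gw S ε (l + 1)) - ag S S' φ zc s l (gw S ε l)) +
      ag S S' φ zc s l (fun z x => gw S ε l z x - gw S ε (l + 1) z x) := by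
    intro l hl
    rw [Finset.mem_Ico] at hl
    have hlK : l ≤ S.K := hl.2.le
    have hl1 : l + 1 ≤ S.K := hl.2
    have ng0 := Ld.nh_gw hS ε hlK
    have ng1 := Ld.nh_gw hS ε hl1
    have e2 : (fun x x' => ε x * ε x' * (Rov φ x x' - S'.Rl φ l)) =
        fun x x' => ε x * ε x' * Rov φ x x' + (-S'.Rl φ l) * (ε x * ε x') := by
      funext x x'
      ring
    rw [e2, hS.pairEx_add hlK (fun x x' => ε x * ε x' * Rov φ x x')
      (fun x x' => (-S'.Rl φ l) * (ε x * ε x')), hS.pairEx_const_mul, gw_pair F ε hlK]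
    have g1 := a_gw F F' hK hm (Nat.lt_succ_self l) hl1 (hσl _ hl.1 hlK) (hσl _ (by omega) hl1) ε
    have g2 := aB_sub (S' := S') F hlK ng0 ng1
    have g3 := ag_sub (S' := S') F l ng0 ng1
    have g4 := aB_eq (S' := S') F hlK ng0
    rw [g2, g3, g4]
    linear_combination g1
  rw [Finset.sum_congr rfl h1, Finset.sum_add_distrib, Finset.sum_add_distrib,
    Finset.sum_add_distrib, rsum_tel (fun l => ag S S' φ zc s l (gw S ε l)) hd]
  -- the bounds
  have hp0 : ∀ i ≤ S.K, 0 ≤ S.p i := fun i hi => by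
    rw [Sy.p]
    linarith [hS.mono i hi]
  have b1 : |∑ l ∈ Finset.Ico d S.K, S.p l *
      (S.pairEx l (fun x x' => ε x * ε x' * Rov φ x x') -
        S.Ex (fun z x => gw S ε l z x * uu S φ l z x))| ≤
      ∑ l ∈ Finset.Ico d S.K, S.p l * √(gQ S φ l - gW S φ l) := by
    refine (Finset.abs_sum_le_sum_abs _ _).trans (Finset.sum_le_sum fun l hl => ?_)
    rw [Finset.mem_Ico] at hl
    rw [abs_mul, abs_of_nonneg (hp0 l hl.2.le)]
    exact mul_le_mul_of_nonneg_left (gw_pairR F hε hl.2.le) (hp0 l hl.2.le)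
  have nd : ∀ l, l < S.K → Nh (fun z x => gw S ε l z x - gw S ε (l + 1) z x) := fun l hl =>
    Nh.sub (Ld.nh_gw hS ε hl.le) (Ld.nh_gw hS ε (show l + 1 ≤ S.K from hl))
  have b2 : |∑ l ∈ Finset.Ico d S.K, S.p l *
      aB S S' φ l (fun z x => gw S ε l z x - gw S ε (l + 1) z x)| ≤
      ∑ l ∈ Finset.Ico d S.K, S.p l * (√(S.Ex (gw S ε (l + 1)) - S.Ex (gw S ε l)) *
        √(aV S S' φ l)) := by
    refine (Finset.abs_sum_le_sum_abs _ _).trans (Finset.sum_le_sum fun l hl => ?_)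
    rw [Finset.mem_Ico] at hl
    rw [abs_mul, abs_of_nonneg (hp0 l hl.2.le)]
    refine mul_le_mul_of_nonneg_left ?_ (hp0 l hl.2.le)
    have h := a_cs hS (nd l hl.2) (Nh.sub (nh_uu (φ := φ) hS hl.2.le) (a_cst (S'.Rl φ l)))
    refine h.trans ?_
    exact mul_le_mul_of_nonneg_right (Real.sqrt_le_sqrt (gw_diff F hε hl.2)) (Real.sqrt_nonneg _)
  have hfG : ∀ j, d ≤ j → j ≤ S.K → af S S' φ zc j ≤ G := by
    intro j h2 h3
    rw [hG]
    refine Real.le_sqrt_of_sq_le ?_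
    exact Finset.single_le_sum (f := fun j => af S S' φ zc j ^ 2) (fun i _ => sq_nonneg _)
      (Finset.mem_Ico.2 ⟨h2, by omega⟩)
  have b3 : ∀ j, d ≤ j → j ≤ S.K → |ag S S' φ zc s j (gw S ε j)| ≤ G / σ := by
    intro j h2 h3
    have h := ag_le (S' := S') F hσ (j := j) (fun h => hs _ h2 h) (Ld.nh_gw hS ε h3)
    refine h.trans (div_le_div_of_nonneg_right ?_ hσ.le)
    calc af S S' φ zc j * √(S.Ex (fun z x => gw S ε j z x ^ 2)) ≤ af S S' φ zc j * 1 :=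
          mul_le_mul_of_nonneg_left (a_gw_sq F hε h3) (hf0 j)
      _ ≤ G := by rw [mul_one]; exact hfG j h2 h3
  have b4 : |∑ l ∈ Finset.Ico d S.K,
      ag S S' φ zc s l (fun z x => gw S ε l z x - gw S ε (l + 1) z x)| ≤ G / σ := by
    have c1 : |∑ l ∈ Finset.Ico d S.K,
        ag S S' φ zc s l (fun z x => gw S ε l z x - gw S ε (l + 1) z x)| ≤
        (∑ l ∈ Finset.Ico d S.K, √(af S S' φ zc l ^ 2) *
          √(S.Ex (gw S ε (l + 1)) - S.Ex (gw S ε l))) / σ := by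
      refine (Finset.abs_sum_le_sum_abs _ _).trans ?_
      rw [Finset.sum_div]
      refine Finset.sum_le_sum fun l hl => ?_
      rw [Finset.mem_Ico] at hl
      have h := ag_le (S' := S') F hσ (j := l) (fun h => hs _ hl.1 h) (nd l hl.2)
      refine h.trans (div_le_div_of_nonneg_right ?_ hσ.le)
      rw [Real.sqrt_sq (hf0 l)]
      exact mul_le_mul_of_nonneg_left (Real.sqrt_le_sqrt (gw_diff F hε hl.2)) (hf0 l)
    refine c1.trans (div_le_div_of_nonneg_right ?_ hσ.le)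
    have hmono : ∀ l, l < S.K → 0 ≤ S.Ex (gw S ε (l + 1)) - S.Ex (gw S ε l) := by
      intro l hl
      refine le_trans ?_ (gw_diff F hε hl)
      rw [← hS.Ex_const 0]
      exact hS.Ex_mono (a_cst 0) (Nh.pow (nd l hl) 2) fun z x => sq_nonneg _
    have c2 := rsum_cs (Finset.Ico d S.K) (f := fun l => af S S' φ zc l ^ 2)
      (g := fun l => S.Ex (gw S ε (l + 1)) - S.Ex (gw S ε l)) (fun i _ => sq_nonneg _)
      (fun i hi => hmono i (Finset.mem_Ico.1 hi).2)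
    refine c2.trans ?_
    rw [rsum_tel (fun l => S.Ex (gw S ε l)) hd]
    have c3 : √(∑ l ∈ Finset.Ico d S.K, af S S' φ zc l ^ 2) ≤ G := by
      rw [hG]
      refine Real.sqrt_le_sqrt (Finset.sum_le_sum_of_subset_of_nonneg ?_ fun i _ _ => sq_nonneg _)
      exact Finset.Ico_subset_Ico le_rfl (Nat.le_succ _)
    have c4 : √(S.Ex (gw S ε S.K) - S.Ex (gw S ε d)) ≤ 1 := by
      rw [Real.sqrt_le_one]
      have a1 := (gw_nonneg F hε hd).1
      have a2 := (gw_nonneg F hε (le_refl S.K)).2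
      linarith
    calc √(∑ l ∈ Finset.Ico d S.K, af S S' φ zc l ^ 2) *
          √(S.Ex (gw S ε S.K) - S.Ex (gw S ε d)) ≤ G * 1 :=
          mul_le_mul c3 c4 (Real.sqrt_nonneg _) (by rw [hG]; exact Real.sqrt_nonneg _)
      _ = G := mul_one _
  have b5 := b3 S.K hd le_rfl
  have b6 := b3 d le_rfl hd
  rw [← hG]
  have e1 : ∑ l ∈ Finset.Ico d S.K, S.p l * (√(gQ S φ l - gW S φ l) +
        √(S.Ex (gw S ε (l + 1)) - S.Ex (gw S ε l)) * √(aV S S' φ l)) =
      ∑ l ∈ Finset.Ico d S.K, S.p l * √(gQ S φ l - gW S φ l) +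
      ∑ l ∈ Finset.Ico d S.K, S.p l * (√(S.Ex (gw S ε (l + 1)) - S.Ex (gw S ε l)) *
        √(aV S S' φ l)) := by
    rw [← Finset.sum_add_distrib]
    exact Finset.sum_congr rfl fun l _ => by ring
  have e2 : 3 * G / σ = G / σ + G / σ + G / σ := by ring
  rw [e1, e2]
  rw [abs_le] at b1 b2 b4 b5 b6 ⊢
  constructor <;> linarith [b1.1, b1.2, b2.1, b2.2, b4.1, b4.2, b5.1, b5.2, b6.1, b6.2]

end gen

end Vale.Agent.P146.R3.A
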